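import Crest.Statements.S0010
import Crest.Agent.R9.Fg

set_option autoImplicit false
open Crest.NumberTheoryR.MilnorK
open Crest Crest.NumberTheoryR

namespace Crest.Agent.S0010

/-- Let K and L be fields of characteristic p that are finitely generated and of transcendence degree at least 2 over algebraically closed subfields k and l. Let Θ be a linear isomorphism, over the integers mod p, from Kˣ/(Kˣ)^p to Lˣ/(Lˣ)^p that maps the span of the Steinberg elements [f] ⊗ [1 - f] (f ≠ 0, 1) of K exactly onto that of L. Then there is exactly one field isomorphism α from K to L with α(k) = l such that, for some non-zero scalar c, Θ[u] = c · [α(u)] for every unit u of K. -/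
theorem result {p : ℕ} [Fact p.Prime]
    {K L : Type*} [Field K] [Field L] [CharP K p] [CharP L p] (k : Subfield K) (l : Subfield L)
    [IsAlgClosed k] [IsAlgClosed l]
    (hK : ∃ s : Finset K, Subfield.closure ((k : Set K) ∪ (s : Set K)) = ⊤)
    (hL : ∃ s : Finset L, Subfield.closure ((l : Set L) ∪ (s : Set L)) = ⊤)
    (hK2 : 2 ≤ Algebra.trdeg k K) (hL2 : 2 ≤ Algebra.trdeg l L)
    (Θ : KOne K p ≃ₗ[ZMod p] KOne L p) (hΘ : IsCompatible Θ) :
    ∃! α : K ≃+* L, k.map α.toRingHom = l ∧
      ∃ c : ZMod p, c ≠ 0 ∧ ∀ u : Kˣ, Θ (cls K p u) = c • cls L p (Units.map α.toRingHom.toMonoidHom u) := by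
  have fK := R9.essFiniteType_of_closure k hK
  have fL := R9.essFiniteType_of_closure l hL
  let Θ' : R9.KG K p ≃ₗ[ZMod p] R9.KG L p := Θ
  have c1 : R9.Compat Θ' := by
    intro f hf hf1
    rw [R9.cl_of_ne hf, R9.cl_of_ne hf1]
    apply R9.par_of_mem_steinberg
    rw [← hΘ]
    exact ⟨_, Submodule.subset_span ⟨f, hf, hf1, rfl⟩, rfl⟩
  have c2 : R9.Compat Θ'.symm := by
    intro f hf hf1
    rw [R9.cl_of_ne hf, R9.cl_of_ne hf1]
    apply R9.par_of_mem_steinberg
    have h1 : TensorProduct.tmul (ZMod p) (cls L p (Units.mk0 f hf))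
        (cls L p (Units.mk0 (1 - f) hf1)) ∈ steinberg L p :=
      Submodule.subset_span ⟨f, hf, hf1, rfl⟩
    rw [← hΘ] at h1
    obtain ⟨t, ht, ht'⟩ := h1
    have h2 := congrArg (TensorProduct.map Θ.symm.toLinearMap Θ.symm.toLinearMap) ht'
    rw [← LinearMap.comp_apply, ← TensorProduct.map_comp] at h2
    simp only [LinearEquiv.comp_coe, LinearEquiv.self_trans_symm, LinearEquiv.refl_toLinearMap,
      TensorProduct.map_id, LinearMap.id_apply, TensorProduct.map_tmul] at h2
    rw [h2] at ht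
    exact ht
  have hpar := R9.exists_not_par (p := p) k hK2
  obtain ⟨α, m, hm, hα⟩ := R9.exists_ringEquiv Θ' c1 c2 hpar
  have conv : ∀ (β : K ≃+* L) (c : ZMod p), c ≠ 0 →
      (∀ u : Kˣ, Θ (cls K p u) = c • cls L p (Units.map β.toRingHom.toMonoidHom u)) →
      ∀ x, R9.cl L p (β x) = c⁻¹ • Θ' (R9.cl K p x) := by
    intro β c hc h x
    by_cases hx : x = 0
    · subst hx
      simp
    have h1 : Θ' (R9.cl K p x) = c • R9.cl L p (β x) := by
      have h2 := R9.cl_unit (p := p) (Units.map β.toRingHom.toMonoidHom (Units.mk0 x hx))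
      rw [R9.cl_of_ne hx]
      exact (h (Units.mk0 x hx)).trans (congrArg (fun z : R9.KG L p => c • z) h2.symm)
    rw [h1, smul_smul, inv_mul_cancel₀ hc, one_smul]
  refine ⟨α, ⟨?_, m⁻¹, inv_ne_zero hm, fun u => ?_⟩, ?_⟩
  · ext y
    constructor
    · rintro ⟨x, hx, rfl⟩
      exact R9.map_mem_of_ringHom k l α.toRingHom hx
    · intro hy
      exact ⟨α.symm y, R9.map_mem_of_ringHom l k α.symm.toRingHom hy, by simp⟩
  · have h1 : Θ' (R9.cl K p u) = m⁻¹ • R9.cl L p (α u) := by
      rw [hα, smul_smul, inv_mul_cancel₀ hm, one_smul]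
    have h2 := R9.cl_unit (p := p) (Units.map α.toRingHom.toMonoidHom u)
    rw [R9.cl_unit] at h1
    exact h1.trans (congrArg (fun z : R9.KG L p => m⁻¹ • z) h2)
  · rintro β ⟨-, c, hc, hβ⟩
    have := R9.ringHom_unique Θ' (R9.exists_not_mem_Fp hpar) (α := β.toRingHom)
      (β := α.toRingHom) (inv_ne_zero hc) hm (conv β c hc hβ) hα
    ext x
    exact DFunLike.congr_fun this x

end Crest.Agent.S0010
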