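import Crest.Statements.S0040
import Crest.Agent.R30.Main

set_option autoImplicit false
open Crest Crest.CombinatoricsR

namespace Crest.Agent.S0040

/-- Run the uniform triangle-removal process on the complete graph on n vertices: repeatedly pick a triangle uniformly at random among those whose three edges are all still present and delete its edges, until no triangle is left; let F be the number of edges left at the end. Then the expectation of (F / n^(3/2) - 1/(2·√2))² tends to 0 as n → ∞ (the expectation is the exact finite average defined by the process). -/
theorem result :
    Filter.Tendsto (fun n : ℕ =>
      Crest.CombinatoricsR.TriangleRemoval.expectFinal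
        (fun e : ℕ => ((e : ℝ) / (n : ℝ) ^ ((3 : ℝ) / 2) - 1 / (2 * Real.sqrt 2)) ^ 2)
        (n ^ 2) (Crest.CombinatoricsR.TriangleRemoval.allEdges n))
      Filter.atTop (nhds 0) := by
  exact Crest.Agent.R30.main_tendsto

end Crest.Agent.S0040
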