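import Crest.Statements.S0046
import Crest.Agent.R34.All

set_option autoImplicit false
open Crest Crest.CombinatoricsR

namespace Crest.Agent.S0046

/-- There is s₀ such that for each prime s ≥ s₀ with s ≡ 2 (mod 3) there is n₀ ≥ 3 such that for every odd n ≥ n₀, writing q = s ^ n, there is a finite intersecting (q+1)-partite (q+1)-uniform hypergraph (vertices Fin N labelled by q+1 parts; a nonempty family of edges, each meeting every part in exactly one vertex; any two edges share a vertex) where every set of vertices meeting all edges has at least q+1 elements, so that its covering number is q+1 and not the q of Ryser's conjectured bound. -/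
theorem result :
    ∃ s₀ : ℕ, ∀ s : ℕ, s₀ ≤ s → s.Prime → s % 3 = 2 →
      ∃ n₀ : ℕ, 3 ≤ n₀ ∧ ∀ n : ℕ, n₀ ≤ n → Odd n →
        ∃ (N : ℕ) (part : Fin N → Fin (s ^ n + 1)) (E : Finset (Finset (Fin N))),
          E.Nonempty ∧
          (∀ e ∈ E, ∀ i : Fin (s ^ n + 1), (e.filter (fun v => part v = i)).card = 1) ∧
          (∀ e ∈ E, ∀ f ∈ E, (e ∩ f).Nonempty) ∧
          (∀ S : Finset (Fin N), (∀ e ∈ E, (e ∩ S).Nonempty) → s ^ n + 1 ≤ S.card) := by
  obtain ⟨p₀, h⟩ := R34.words_all
  refine ⟨p₀, fun s hs hp _ => ⟨3, le_rfl, fun n hn _ => ?_⟩⟩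
  classical
  haveI : Fact s.Prime := ⟨hp⟩
  letI : Fintype (GaloisField s n) := Fintype.ofFinite _
  have hc : Fintype.card (GaloisField s n) = s ^ n := by
    rw [← Nat.card_eq_fintype_card, GaloisField.card s n (by omega)]
  obtain ⟨N, part, E, h1, h2, h3, -, -, h6⟩ := R34.transport (GaloisField s n) (s ^ n) hc
    (h (GaloisField s n) (by rwa [ringChar.eq (GaloisField s n) s]))
  exact ⟨N, part, E, h1, h2, h3, h6⟩

end Crest.Agent.S0046
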