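import Crest.Statements.S0053
import Crest.Agent.R39.Main
import Crest.Agent.R39.BridgeC

set_option autoImplicit false
open Crest Crest.CombinatoricsR

namespace Crest.Agent.S0053

/-- Every finite simple graph that is cubic (3-regular), bipartite (properly 2-colourable), 3-vertex-connected (at least four vertices, connected after deleting any two) and planar has a Hamiltonian cycle. Planarity is taken in combinatorial-map form: the graph is connected and has a rotation system (a cyclic order of the darts at each vertex) whose face count F satisfies (number of vertices) - (number of edges) + F = 2. -/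
theorem result (V : Type)
    [Fintype V] [DecidableEq V] (G : SimpleGraph V) [DecidableRel G.Adj]
    (hcubic : G.IsRegularOfDegree 3) (hbip : G.Colorable 2)
    (hplanar : Crest.CombinatoricsR.PlanarMap.IsPlanarMap G) (hconn : Crest.CombinatoricsR.PlanarMap.IsThreeConnected G) :
    G.IsHamiltonian :=
  Crest.Agent.R39.Br.final_of_main
    (fun _ _ _ _ _ _ _ _ _ _ _ _ _ h e0 => Crest.Agent.R39.Mp.main h e0) hcubic hbip hplanar hconn

end Crest.Agent.S0053
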