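import Crest.Statements.S0066
import Crest.Agent.R47.Main

set_option autoImplicit false
open Crest Crest.CombinatoricsR

namespace Crest.Agent.S0066

/-- There is a fixed 66 × 66 binary pattern H such that for every h ≥ 1, with n = (386h + 2) · 2^h and ε = (386h + 2)⁻², some n × n binary matrix A is ε-far from free of ordered copies of H (every n × n binary matrix without an ordered copy of H differs from A in at least ε · n² cells) while the number of ordered copies of H in A is at most ε · 2^(-h) · n^132. An ordered copy picks 66 rows and 66 columns in increasing order on which A coincides with H, zeros included. -/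
theorem result :
    ∃ H : Fin 66 → Fin 66 → Bool, ∀ h : ℕ, 1 ≤ h →
      ∃ A : Fin ((386 * h + 2) * 2 ^ h) → Fin ((386 * h + 2) * 2 ^ h) → Bool,
        (∀ B : Fin ((386 * h + 2) * 2 ^ h) → Fin ((386 * h + 2) * 2 ^ h) → Bool,
          Crest.CombinatoricsR.OrderedMatrix.orderedCopyCount H B = 0 →
            ((386 * (h : ℝ) + 2) ^ 2)⁻¹ * (((386 * h + 2) * 2 ^ h : ℕ) : ℝ) ^ 2 ≤
              ((Finset.univ.filter (fun rc : Fin ((386 * h + 2) * 2 ^ h) × Fin ((386 * h + 2) * 2 ^ h) =>
                A rc.1 rc.2 ≠ B rc.1 rc.2)).card : ℝ)) ∧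
        (Crest.CombinatoricsR.OrderedMatrix.orderedCopyCount H A : ℝ) /
            (((386 * h + 2) * 2 ^ h : ℕ) : ℝ) ^ 132 ≤
          ((386 * (h : ℝ) + 2) ^ 2)⁻¹ * (2 : ℝ)⁻¹ ^ h := by
  refine ⟨R47.Hb, fun h hh => ?_⟩
  obtain ⟨e, he⟩ := R47.exists_emb (R47.key (h := h)) R47.key_inj ((386 * h + 2) * 2 ^ h)
    (by rw [R47.card_R]; exact Nat.mul_le_mul_right _ (by omega))
  have hK : (0 : ℝ) < 386 * (h : ℝ) + 2 := by positivity
  have hN : (0 : ℝ) < 2 ^ h := by positivity
  refine ⟨R47.host e, fun B hB => ?_, ?_⟩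
  · have := R47.far_le he hh B hB
    refine le_trans (le_of_eq ?_) (Nat.cast_le.2 this)
    push_cast
    field_simp
  · have := R47.count_le he hh
    have h2 : ((Crest.CombinatoricsR.OrderedMatrix.orderedCopyCount R47.Hb (R47.host e) : ℕ) : ℝ) ≤
        ((2 ^ h * ((386 * h + 2) * 2 ^ h) ^ 130 : ℕ) : ℝ) := Nat.cast_le.2 this
    have hn : (0 : ℝ) < (((386 * h + 2) * 2 ^ h : ℕ) : ℝ) := by positivity
    rw [div_le_iff₀ (by positivity)]
    refine h2.trans (le_of_eq ?_)
    rw [Nat.cast_mul, Nat.cast_pow, Nat.cast_pow]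
    have e1 : (((386 * h + 2) * 2 ^ h : ℕ) : ℝ) = (386 * (h : ℝ) + 2) * 2 ^ h := by push_cast; ring
    generalize (((386 * h + 2) * 2 ^ h : ℕ) : ℝ) = n at *
    rw [show n ^ 132 = n ^ 130 * n ^ 2 by ring]
    generalize n ^ 130 = m
    rw [e1, inv_pow]
    push_cast
    field_simp

end Crest.Agent.S0066
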