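import Crest.Statements.S0076
import Crest.Agent.R55.Final

set_option autoImplicit false
open Crest Crest.CombinatoricsR

namespace Crest.Agent.S0076

/-- Let n ≥ 2 and let H be a finite simple graph with h ≥ 1 edges on at most n vertices. Suppose the edge probability p ∈ [0, 1] is such that for every subgraph F of H the expected number of subgraphs of the binomial random graph on n labelled vertices that are isomorphic to F is at least 1/2. Then at edge probability min(1, 2^11 · e^50 · p · (1 + log₂ h)) that random graph contains a (not necessarily induced) copy of H with probability at least 1/2. -/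
theorem result
    (n : ℕ) (hn : 2 ≤ n) (W : Type) [Fintype W] [DecidableEq W] (H : SimpleGraph W)
    [DecidableRel H.Adj] (hW : Fintype.card W ≤ n) (hH : 1 ≤ H.edgeFinset.card)
    (p : ℝ) (hp0 : 0 ≤ p) (hp1 : p ≤ 1)
    (hE : ∀ F : H.Subgraph, (1 : ℝ) / 2 ≤
      Crest.CombinatoricsR.RandomGraph.gnpExpect n p (fun G => (G.copyCount F.coe : ℝ))) :
    (1 : ℝ) / 2 ≤ Crest.CombinatoricsR.RandomGraph.gnpProb n
      (min 1 (2048 * Real.exp 50 * p * (1 + Real.logb 2 (H.edgeFinset.card : ℝ))))
      {G | H.IsContained G} := by
  exact Crest.Agent.R55.Glue.glue (by positivity) Crest.Agent.R55.const_le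
    Crest.Agent.R55.dkp_glue n W H hW hH p hp0 hp1 hE

end Crest.Agent.S0076
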