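import Crest.Statements.S0077
import Crest.Agent.R56.Russo

set_option autoImplicit false
open Crest Crest.CombinatoricsR

namespace Crest.Agent.S0077

/-- Let n ≥ 2 and let P be a family of simple graphs on n labelled vertices that is invariant under renaming vertices, closed under adding edges, non-empty and not everything; let 0 < ε < 1/2. If the binomial random graph with edge probability p ∈ [0, 1] lies in P with probability at least ε, then at every edge probability q ∈ [0, 1] with q ≥ p + 2^19 · log(1/(2ε)) / (log n)² it lies in P with probability at least 1 - ε: the threshold interval from ε to 1 - ε is at most that long. -/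
theorem result (n : ℕ) (hn : 2 ≤ n)
    (P : Set (SimpleGraph (Fin n)))
    (hsymm : ∀ σ : Equiv.Perm (Fin n), ∀ G : SimpleGraph (Fin n), G ∈ P → G.map σ.toEmbedding ∈ P)
    (hmono : ∀ G G' : SimpleGraph (Fin n), G ≤ G' → G ∈ P → G' ∈ P)
    (hne : P.Nonempty) (hnu : P ≠ Set.univ) (ε : ℝ) (hε0 : 0 < ε) (hε : ε < 1 / 2)
    (p q : ℝ) (hp0 : 0 ≤ p) (hp1 : p ≤ 1) (hq0 : 0 ≤ q) (hq1 : q ≤ 1)
    (hp : ε ≤ Crest.CombinatoricsR.RandomGraph.gnpProb n p P)
    (hq : p + 2 ^ 19 / Real.log n ^ 2 * Real.log (1 / (2 * ε)) ≤ q) :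
    1 - ε ≤ Crest.CombinatoricsR.RandomGraph.gnpProb n q P := by
  classical
  have hn2 : (2 : ℝ) ≤ n := by exact_mod_cast hn
  have hL : 0 < Real.log n := Real.log_pos (by linarith)
  set F : (RandomGraph.EdgeSlot n → Bool) → ℝ :=
    fun ω => if RandomGraph.graphOf ω ∈ P then 1 else 0 with hF
  have hF01 : ∀ ω, F ω = 0 ∨ F ω = 1 := fun ω => by
    simp only [hF]
    split_ifs <;> simp
  have hprob : ∀ t, RandomGraph.gnpProb n t P = BC.E t F := fun t => by
    rw [RandomGraph.gnpProb, R56.bernoulliProb_eq]
    rfl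
  have hadj : ∀ (ω : RandomGraph.EdgeSlot n → Bool) (a b : Fin n),
      (RandomGraph.graphOf ω).Adj a b ↔ ∃ h : ¬ (s(a, b)).IsDiag, ω ⟨s(a, b), h⟩ = true := by
    intro ω a b
    simp only [RandomGraph.graphOf, SimpleGraph.fromEdgeSet_adj, Set.mem_ofPred_eq]
    exact ⟨fun h => h.1, fun h => ⟨h, by simpa using h.1⟩⟩
  have hsym : R56.Symm (fun e : RandomGraph.EdgeSlot n => e.1.toFinset) F := by
    intro x y
    let τ : RandomGraph.EdgeSlot n → RandomGraph.EdgeSlot n := fun e =>
      ⟨e.1.map (Equiv.swap x y), fun h => e.2 ((Sym2.isDiag_map (Equiv.swap x y).injective).1 h)⟩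
    have hinv : Function.Involutive τ := by
      intro e
      apply Subtype.ext
      simp [τ, Sym2.map_map]
    have hgr : ∀ ω : RandomGraph.EdgeSlot n → Bool, RandomGraph.graphOf (ω ∘ τ)
        = (RandomGraph.graphOf ω).map (Equiv.swap x y).toEmbedding := by
      intro ω
      ext a b
      have e := SimpleGraph.map_adj_apply (G := RandomGraph.graphOf ω)
        (f := (Equiv.swap x y).toEmbedding) (a := Equiv.swap x y a) (b := Equiv.swap x y b)
      simp only [Equiv.coe_toEmbedding, Equiv.swap_apply_self] at e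
      rw [Equiv.coe_toEmbedding, e, hadj, hadj]
      constructor
      · rintro ⟨h, h'⟩
        exact ⟨(τ ⟨_, h⟩).2, h'⟩
      · rintro ⟨h, h'⟩
        exact ⟨fun h2 => h ((Sym2.isDiag_map (Equiv.swap x y).injective).2 h2), h'⟩
    refine ⟨hinv.toPerm _, fun e => ?_, fun ω => ?_⟩
    · ext z
      simp only [Function.Involutive.coe_toPerm, Sym2.mem_toFinset, τ, Sym2.mem_map,
        Finset.mem_map, Equiv.coe_toEmbedding]
    · have hiff : RandomGraph.graphOf (ω ∘ τ) ∈ P ↔ RandomGraph.graphOf ω ∈ P := by
        refine ⟨fun h => ?_, fun h => hgr ω ▸ hsymm _ _ h⟩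
        have h2 := hsymm (Equiv.swap x y) _ h
        rwa [← hgr, Function.comp_assoc, hinv.comp_self, Function.comp_id] at h2
      simp only [hF, Function.Involutive.coe_toPerm, hiff]
  have hD : ∀ e ω, 0 ≤ BC.D e F ω := by
    intro e ω
    have hle : RandomGraph.graphOf (Function.update ω e false)
        ≤ RandomGraph.graphOf (Function.update ω e true) := by
      intro a b
      rw [hadj, hadj]
      rintro ⟨h, h'⟩
      refine ⟨h, ?_⟩
      by_cases he : (⟨s(a, b), h⟩ : RandomGraph.EdgeSlot n) = e
      · rw [he, Function.update_self]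
      · rwa [Function.update_of_ne he] at h' ⊢
    simp only [BC.D, hF]
    by_cases h : RandomGraph.graphOf (Function.update ω e false) ∈ P
    · simp [h, hmono _ _ hle h]
    · split_ifs <;> simp
  have hinj : Function.Injective (fun e : RandomGraph.EdgeSlot n => e.1.toFinset) := by
    intro e e' h
    apply Subtype.ext
    apply Sym2.ext
    intro z
    rw [← Sym2.mem_toFinset, ← Sym2.mem_toFinset]
    exact (congrArg (z ∈ ·) h).to_iff
  rw [hprob] at hp ⊢
  refine R56.window (μ := fun t => BC.E t F) (μ' := fun t => ∑ e, BC.E t (BC.D e F))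
    (R56.continuous_E F) (c := Real.log n ^ 2 / 2 ^ 17) (by positivity)
    (fun t h0 h1 => R56.russo F h0 h1)
    (fun t h0 h1 => Finset.sum_nonneg fun e _ => BC.E_nonneg h0.le h1.le (hD e))
    (fun t h0 h1 => ?_) hε0 hε hp0 hq1 hp (le_trans (le_of_eq ?_) hq)
  · have key := R56.key (K := Real.log n ^ 2 / 2 ^ 17) h0 h1 hinj (r := 2) le_rfl
      (fun e => Sym2.card_toFinset_of_not_isDiag _ e.2) hF01 hsym (by positivity)
      (by
        rw [Fintype.card_fin]
        norm_num
        nlinarith [sq_nonneg (Real.log n)])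
      (by
        rw [Fintype.card_fin]
        refine le_trans ?_ (le_max_right _ _)
        norm_num
        nlinarith [sq_nonneg (Real.log n)])
    simpa only [abs_of_nonneg (hD _ _)] using key
  · field_simp
    norm_num

end Crest.Agent.S0077
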