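import Crest.Statements.S0078
import Crest.Agent.R56.Main

set_option autoImplicit false
open Crest Crest.CombinatoricsR

namespace Crest.Agent.S0078

/-- For every r ≥ 3 there is a real constant C such that for all n ≥ r, all 0 < p < 1 and every Boolean function f of the simple r-uniform hypergraph on n labelled vertices that is invariant under renaming the vertices (no monotonicity assumed), the variance of f under independent edge-coins of bias p, namely P(f = true) · (1 - P(f = true)), is at most C · (log n)^(-r/(r-1)) times the total pivotal influence of f at bias p (natural logarithm). -/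
theorem result (r : ℕ) (hr : 3 ≤ r) :
    ∃ C : ℝ, ∀ n : ℕ, r ≤ n → ∀ p : ℝ, 0 < p → p < 1 →
      ∀ f : (Crest.CombinatoricsR.HypergraphCube.HyperedgeSlot n r → Bool) → Bool,
        Crest.CombinatoricsR.HypergraphCube.IsSymmetric f →
          Crest.CombinatoricsR.HypergraphCube.probTrue p f *
              (1 - Crest.CombinatoricsR.HypergraphCube.probTrue p f) ≤
            C / Real.log n ^ ((r : ℝ) / ((r : ℝ) - 1)) *
              Crest.CombinatoricsR.HypergraphCube.totalInfluence p f := by
  classical
  refine ⟨2 * (32 * r) ^ 2, fun n hn p h0 h1 f hf => ?_⟩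
  have hr' : (3 : ℝ) ≤ r := by exact_mod_cast hr
  have hn3 : (3 : ℝ) ≤ n := by exact_mod_cast hr.trans hn
  have hL : 0 < Real.log n := Real.log_pos (by linarith)
  set ρ : ℝ := (r : ℝ) / ((r : ℝ) - 1) with hρ
  have hρ0 : 0 ≤ ρ := div_nonneg (by linarith) (by linarith)
  have hρ2 : ρ ≤ 2 := by
    rw [hρ, div_le_iff₀ (by linarith)]
    linarith
  have hLρ : 0 < Real.log n ^ ρ := Real.rpow_pos_of_pos hL _
  have hC : (0 : ℝ) < 2 * (32 * r) ^ 2 := by positivity
  set F : (HypergraphCube.HyperedgeSlot n r → Bool) → ℝ := fun ω => if f ω = true then 1 else 0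
    with hF
  have hsym : R56.Symm (fun e : HypergraphCube.HyperedgeSlot n r => e.1) F := by
    intro x y
    have hinv : Function.Involutive (HypergraphCube.relabelSlot (r := r) (Equiv.swap x y)) := by
      intro e
      apply Subtype.ext
      ext z
      simp [HypergraphCube.relabelSlot]
    refine ⟨hinv.toPerm _, fun e => rfl, fun ω => ?_⟩
    have h := hf (Equiv.swap x y) ω
    simp only [hF]
    rw [← h]
    rfl
  have hmul : 2 * (32 * (r : ℝ)) ^ 2 * (Real.log n ^ ρ / (2 * (32 * r) ^ 2)) = Real.log n ^ ρ := by
    field_simp
  have key := R56.key (K := Real.log n ^ ρ / (2 * (32 * r) ^ 2)) h0 h1 Subtype.val_injective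
    (r := r) (by omega) (fun e => e.2) (f := F) (fun ω => by
      simp only [hF]
      split_ifs <;> simp) hsym (by positivity) (by
      rw [hmul, Fintype.card_fin, ← Real.rpow_mul_natCast hL.le, ← Real.rpow_natCast]
      refine le_of_eq (congrArg _ ?_)
      rw [Nat.cast_sub (by omega), hρ, Nat.cast_one]
      exact div_mul_cancel₀ _ (by linarith)) (by
      rw [hmul, Fintype.card_fin]
      rcases le_total (Real.log n) 1 with h | h
      · exact (Real.rpow_le_one hL.le h hρ0).trans (le_max_left _ _)
      · refine le_trans ?_ (le_max_right _ _)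
        rw [← Real.rpow_natCast]
        exact Real.rpow_le_rpow_of_exponent_le h (by exact_mod_cast hρ2))
  have e1 : HypergraphCube.probTrue p f = BC.E p F := by
    rw [HypergraphCube.probTrue, R56.bernoulliProb_eq]
    rfl
  have e2 : HypergraphCube.totalInfluence p f = ∑ e, BC.E p fun ω => |BC.D e F ω| := by
    refine Finset.sum_congr rfl fun e _ => ?_
    rw [HypergraphCube.pivotalInfluence, R56.bernoulliProb_eq]
    congr 1
    funext ω
    simp only [BC.D, hF, Set.mem_ofPred_eq]
    by_cases a : f (Function.update ω e true) = true <;>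
      by_cases b : f (Function.update ω e false) = true <;> simp [a, b]
  rw [e1, e2, div_mul_eq_mul_div, le_div_iff₀ hLρ]
  rw [div_mul_eq_mul_div, div_le_iff₀ hC] at key
  linarith

end Crest.Agent.S0078
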