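import Crest.Statements.S0084
import Crest.Agent.R62.Main

set_option autoImplicit false
open Classical
open scoped Matrix
open Crest Crest.CombinatoricsR

namespace Crest.Agent.S0084

/-- For every d ≥ 3 there are a threshold n₀ and a polynomial-time map F on bit strings such that for every even n ≥ n₀, reading the output of F on the unary string of length n as an n × n adjacency bit matrix gives a simple d-regular graph on n vertices all of whose adjacency eigenvalues on the space orthogonal to the constant vector lie strictly between -2√(d-1) and 2√(d-1): for every non-zero real vector x with zero coordinate sum, the absolute value of xᵀ A x is less than 2√(d-1) · xᵀ x. -/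
theorem result (d : ℕ) (hd : 3 ≤ d) :
    ∃ n₀ : ℕ, ∃ F : List Bool → List Bool, Crest.Complexity.PolyTime F ∧
      ∀ n : ℕ, n₀ ≤ n → Even n →
        (Crest.CombinatoricsR.GraphCode.adjGraph n
            (F (Crest.CombinatoricsR.GraphCode.unary n))).IsRegularOfDegree d ∧
        ∀ x : Fin n → ℝ, ∑ i, x i = 0 → x ≠ 0 →
          |x ⬝ᵥ ((Crest.CombinatoricsR.GraphCode.adjGraph n
              (F (Crest.CombinatoricsR.GraphCode.unary n))).adjMatrix ℝ *ᵥ x)| <
            2 * Real.sqrt ((d : ℝ) - 1) * (x ⬝ᵥ x) := by
  obtain ⟨n0, f, hf, h⟩ := Crest.Agent.R62.main d hd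
  refine ⟨n0, f, hf, fun n hn hev => ?_⟩
  obtain ⟨A, hg, hout, hsp⟩ := h n hn hev
  obtain ⟨h1, h2⟩ := hg.final (GraphCode.adjGraph n (f (GraphCode.unary n))) (fun i j => by
    show (i ≠ j ∧ _ ∧ _) ↔ _
    rw [hout i j, hout j i])
  refine ⟨h1, fun x hx hx0 => ?_⟩
  rw [h2]
  exact hsp x hx hx0

end Crest.Agent.S0084
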