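import Crest.Statements.S0104
import Crest.Agent.R78F.A104
import Crest.Agent.R78F.Est
import Crest.Agent.R78F.Alg
import Crest.Agent.R78F.ZNb
import Crest.Agent.R78F.ZI
import Crest.Agent.R78F.Four
import Crest.Agent.R78F.Low
import Crest.Agent.R78F.Model

set_option autoImplicit false
open Crest Crest.AnalysisR Crest.AnalysisR.OperatorAlgebra

namespace Crest.Agent.S0104

/-- There is ε₀ > 0 such that for every δ > 0 some separable complex Hilbert space H carries von Neumann algebras M and N with the following two properties: every element of M of norm at most 1 lies within operator-norm distance less than δ of some element of N; and every unitary operator u on H with u M u⋆ ⊆ N satisfies ‖u − 1‖ ≥ ε₀. -/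
theorem result :
    ∃ ε₀ : ℝ, 0 < ε₀ ∧ ∀ δ : ℝ, 0 < δ →
      ∃ (H : Type) (_ : NormedAddCommGroup H) (_ : InnerProductSpace ℂ H) (_ : CompleteSpace H)
        (_ : TopologicalSpace.SeparableSpace H) (M N : VonNeumannAlgebra H),
        (∀ x ∈ M, ‖x‖ ≤ 1 → ∃ y ∈ N, ‖x - y‖ < δ) ∧
        ∀ u : H →L[ℂ] H, u ∈ unitary (H →L[ℂ] H) →
          (∀ x ∈ M, u * x * star u ∈ N) → ε₀ ≤ ‖u - 1‖ :=
  R78F.s0104_of R78F.modelStmt
    (R78F.estStmt_of R78F.algStmt (R78F.znStmt' R78F.fourStmt) R78F.ziStmt) R78F.lowStmt

end Crest.Agent.S0104
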