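import Crest.Statements.S0110
import Crest.Agent.R82.SharpC

set_option autoImplicit false
open MeasureTheory
open scoped ENNReal NNReal
open Crest.AnalysisR.OT
open Crest Crest.AnalysisR Crest.AnalysisR.OT

namespace Crest.Agent.S0110

/-- The exponent one third is optimal, even on the cube with three-atom targets: for d ≥ 2, ρ the uniform probability measure on the cube of points of ℝᵈ with all coordinates in [-1, 1], every α > 1/3 and every C ≥ 0, there are three-atomic probability measures μ, ν on that cube, each admitting a quadratic optimal transport map from ρ, such that for all such optimal maps Tμ, Tν some coupling π of μ, ν has C · (∫ ‖y - z‖² dπ)^α < ∫ ‖Tμ - Tν‖² dρ. Hence ‖Tμ - Tν‖_{L²(ρ)} > √C · W₂(μ, ν)^α. -/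
theorem result
    (d : ℕ) (hd : 2 ≤ d) (α : ℝ) (hα : 1 / 3 < α) (C : ℝ≥0) :
    ∃ μ ν : Measure (EuclideanSpace ℝ (Fin d)),
      IsProbabilityOn {x : EuclideanSpace ℝ (Fin d) | ∀ i, |x i| ≤ 1} μ ∧
      IsProbabilityOn {x : EuclideanSpace ℝ (Fin d) | ∀ i, |x i| ≤ 1} ν ∧
      IsThreeAtomic μ ∧ IsThreeAtomic ν ∧
      (∃ T, IsOptimalMap (uniformProbOn {x : EuclideanSpace ℝ (Fin d) | ∀ i, |x i| ≤ 1}) μ T) ∧
      (∃ T, IsOptimalMap (uniformProbOn {x : EuclideanSpace ℝ (Fin d) | ∀ i, |x i| ≤ 1}) ν T) ∧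
      ∀ Tμ Tν : EuclideanSpace ℝ (Fin d) → EuclideanSpace ℝ (Fin d),
        IsOptimalMap (uniformProbOn {x : EuclideanSpace ℝ (Fin d) | ∀ i, |x i| ≤ 1}) μ Tμ →
        IsOptimalMap (uniformProbOn {x : EuclideanSpace ℝ (Fin d) | ∀ i, |x i| ≤ 1}) ν Tν →
        ∃ π : Measure (EuclideanSpace ℝ (Fin d) × EuclideanSpace ℝ (Fin d)), IsPairCoupling μ ν π ∧
          (C : ℝ≥0∞) * quadCost π ^ α < ∫⁻ x, ‖Tμ x - Tν x‖ₑ ^ 2 ∂(uniformProbOn {x : EuclideanSpace ℝ (Fin d) | ∀ i, |x i| ≤ 1}) := by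
  obtain ⟨δ, hδ, hδ', hlt⟩ := R82S.exists_delta hα (C : ℝ)
  let i0 : Fin d := ⟨0, by omega⟩
  let i1 : Fin d := ⟨1, by omega⟩
  have h01 : i0 ≠ i1 := by simp [i0, i1, Fin.ext_iff]
  have hs : (-δ) ^ 2 = δ ^ 2 := by ring
  refine ⟨_, _, R82S.Tm_prob h01 hδ hδ' rfl, R82S.Tm_prob h01 hδ hδ' hs,
    R82S.Tm_three h01 hδ hδ' rfl, R82S.Tm_three h01 hδ hδ' hs,
    ⟨_, R82S.Tm_optimal h01 hδ hδ' rfl⟩, ⟨_, R82S.Tm_optimal h01 hδ hδ' hs⟩, ?_⟩
  intro S S' hS hS'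
  refine ⟨R82S.cpl i0 i1 δ, R82S.cpl_coupling h01 hδ hδ', ?_⟩
  refine lt_of_lt_of_le ?_ (R82S.lower_bound h01 hδ hδ' hS hS')
  have hα0 : 0 ≤ α := by linarith
  calc (C : ℝ≥0∞) * quadCost (R82S.cpl i0 i1 δ) ^ α
      ≤ (C : ℝ≥0∞) * ENNReal.ofReal (8 * δ ^ 3) ^ α := by
        gcongr
        exact R82S.cpl_cost h01 hδ hδ'
    _ = ENNReal.ofReal ((C : ℝ) * (8 * δ ^ 3) ^ α) := by
        rw [ENNReal.ofReal_rpow_of_nonneg (by positivity) hα0, ENNReal.ofReal_mul C.coe_nonneg,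
          ENNReal.ofReal_coe_nnreal]
    _ < ENNReal.ofReal (δ / 16) := (ENNReal.ofReal_lt_ofReal_iff (by positivity)).2 hlt

end Crest.Agent.S0110
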