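import Crest.Statements.S0120
import Crest.Agent.R91.Psi
import Crest.Agent.R91.NoC0

set_option autoImplicit false
open Crest Crest.AnalysisR Crest.Agent.R91

namespace Crest.Agent.S0120

/-- There are separable real Banach spaces X and Y and a bijection Ψ from X to Y with (4/21) * ‖s - t‖ ≤ ‖Ψ s - Ψ t‖ ≤ (76/25) * ‖s - t‖ for all s, t in X, such that X contains a linearly isometric copy of c₀(ℓ₂), Y has no closed linear subspace linearly homeomorphic to c₀(ℓ₂), and X and Y are not linearly homeomorphic. Here ℓ₂ is the real Hilbert space of square-summable real sequences and c₀(ℓ₂) is the space of ℓ₂-valued sequences tending to zero, with the supremum norm. -/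
theorem result :
    ∃ (X : Type) (_ : NormedAddCommGroup X) (_ : NormedSpace ℝ X)
      (Y : Type) (_ : NormedAddCommGroup Y) (_ : NormedSpace ℝ Y),
      CompleteSpace X ∧ TopologicalSpace.SeparableSpace X ∧
      CompleteSpace Y ∧ TopologicalSpace.SeparableSpace Y ∧
      (∃ Ψ : X → Y, Function.Bijective Ψ ∧
        ∀ s t : X, (4 / 21 : ℝ) * ‖s - t‖ ≤ ‖Ψ s - Ψ t‖ ∧ ‖Ψ s - Ψ t‖ ≤ (76 / 25 : ℝ) * ‖s - t‖) ∧
      Nonempty (ZeroAtInftyContinuousMap ℕ (lp (fun _ : ℕ => ℝ) 2) →ₗᵢ[ℝ] X) ∧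
      (∀ S : Submodule ℝ Y, IsClosed (S : Set Y) →
        IsEmpty (S ≃L[ℝ] ZeroAtInftyContinuousMap ℕ (lp (fun _ : ℕ => ℝ) 2))) ∧
      IsEmpty (X ≃L[ℝ] Y) := by
  have hv : (lp.single 2 0 1 : L2) ≠ 0 := fun h => by
    simpa using congrArg (fun f : L2 => f 0) h
  refine ⟨C0 L2 × YY L2, inferInstance, inferInstance, YY L2, inferInstance, inferInstance,
    inferInstance, inferInstance, inferInstance, inferInstance, ⟨Psi, Psi_bij, fun s t => ?_⟩,
    ⟨⟨LinearMap.inl ℝ _ _, fun x => by simp⟩⟩, fun S _ => no_c0_sub hv S,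
    ⟨fun e => let ⟨T, _, h⟩ := prod_embed e; no_c0 hv T h⟩⟩
  obtain ⟨h1, h2⟩ := Psi_bounds s t
  constructor <;> linarith [norm_nonneg (s - t)]

end Crest.Agent.S0120
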