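import Crest.Statements.S0121
import Crest.Agent.R91.Psi
import Crest.Agent.R91.NoC0

set_option autoImplicit false
open Crest Crest.AnalysisR Crest.Agent.R91

namespace Crest.Agent.S0121

/-- There is a separable real Banach space Z with no closed linear subspace linearly homeomorphic to c₀ and a map F from Z ⊕_∞ c₀ onto Z that is bi-Lipschitz: c‖u − v‖ ≤ ‖F u − F v‖ ≤ C‖u − v‖ for some constants 0 < c ≤ C and all u, v. Here c₀ is the space of real sequences tending to zero with the supremum norm, and Z ⊕_∞ c₀ is the product with the maximum norm. -/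
theorem result :
    ∃ (Z : Type) (_ : NormedAddCommGroup Z) (_ : NormedSpace ℝ Z),
      CompleteSpace Z ∧ TopologicalSpace.SeparableSpace Z ∧
      (∀ S : Submodule ℝ Z, IsClosed (S : Set Z) →
        IsEmpty (S ≃L[ℝ] ZeroAtInftyContinuousMap ℕ ℝ)) ∧
      ∃ F : Z × ZeroAtInftyContinuousMap ℕ ℝ → Z, Function.Surjective F ∧
        ∃ c C : ℝ, 0 < c ∧
          ∀ u v : Z × ZeroAtInftyContinuousMap ℕ ℝ,
            c * ‖u - v‖ ≤ ‖F u - F v‖ ∧ ‖F u - F v‖ ≤ C * ‖u - v‖ := by
  refine ⟨YY ℝ, inferInstance, inferInstance, inferInstance, inferInstance,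
    fun S _ => no_c0_sub one_ne_zero S, fun u => Psi u.swap,
    Psi_surj.comp Prod.swap_surjective, 1 / 3, 5 / 2, by norm_num, fun u v => ?_⟩
  have h : ‖u - v‖ = ‖u.swap - v.swap‖ := max_comm _ _
  rw [h]
  exact Psi_bounds _ _

end Crest.Agent.S0121
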