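import Crest.Statements.S0122
import Crest.Agent.R92.Dyn

set_option autoImplicit false
open Crest.AnalysisR.MassAction
open Crest Crest.AnalysisR Crest.AnalysisR.MassAction

namespace Crest.Agent.S0122

/-- For a finite reaction network on `d ≥ 1` species that is weakly reversible, with positive rate constants and mass-action kinetics, every positive stoichiometric class `P` contains a nonempty compact convex set `K` that is forward invariant and absorbing: from every point of `P` there is a solution defined for all forward time, it is unique, it stays coordinatewise positive, and it lies in `K` from some finite time on. -/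
theorem result
    (d : ℕ) (hd : 1 ≤ d) (R : Network d) (hR : IsWeaklyReversible R)
    (k : (Fin d → ℕ) × (Fin d → ℕ) → ℝ) (hk : ∀ r ∈ R, 0 < k r)
    (c : Fin d → ℝ) (hc : ∀ i, 0 < c i) :
    ∃ K : Set (Fin d → ℝ), K ⊆ positiveClass R c ∧ K.Nonempty ∧ IsCompact K ∧ Convex ℝ K ∧
      (∀ x : ℝ → (Fin d → ℝ), IsForwardSolution (field R k) x → x 0 ∈ K →
        ∀ t : ℝ, 0 ≤ t → x t ∈ K) ∧
      (∀ x₀ ∈ positiveClass R c,
        (∃ x : ℝ → (Fin d → ℝ), IsForwardSolution (field R k) x ∧ x 0 = x₀) ∧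
        (∀ x x' : ℝ → (Fin d → ℝ), IsForwardSolution (field R k) x →
          IsForwardSolution (field R k) x' → x 0 = x₀ → x' 0 = x₀ →
          ∀ t : ℝ, 0 ≤ t → x t = x' t) ∧
        (∀ x : ℝ → (Fin d → ℝ), IsForwardSolution (field R k) x → x 0 = x₀ →
          (∀ t : ℝ, 0 ≤ t → ∀ i, 0 < x t i) ∧
          ∃ T : ℝ, 0 ≤ T ∧ ∀ t : ℝ, T ≤ t → x t ∈ K)) := by
  classical
  obtain ⟨Q, ρ, hQ, hlip, hρ, hbox, hface, hexh⟩ := R92.geom R hR k hk
  obtain ⟨T₀, hT₀⟩ := Filter.eventually_atTop.1 (hface.and (hexh c hc))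
  have hcont : ∀ l ∈ Q, Continuous l.2 := fun l hl => (hlip l hl).continuous
  have hIcc : ∀ T₁ T, T ≤ T₁ → ∀ y ∈ R92.poly Q T,
      y ∈ Set.Icc (0 : Fin d → ℝ) (fun _ => ρ T₁) := fun T₁ T hT y hy =>
    ⟨fun j => (hbox T y hy j).1.le, fun j => (hbox T y hy j).2.trans (hρ hT)⟩
  -- perpendicular constraints are always satisfied on the class
  have hperp : ∀ (v : (Fin d → ℝ) → (Fin d → ℝ)) (x : ℝ → (Fin d → ℝ)), IsForwardSolution v x →
      (∀ y, v y ∈ stoichSubspace R) → x 0 - c ∈ stoichSubspace R → ∀ t, 0 ≤ t →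
      x t - c ∈ stoichSubspace R := by
    intro v x hx hv h0 t ht
    have := (stoichSubspace R).add_mem (R92.fwd_sub_mem hx _ hv ht) h0
    simpa using this
  have hperp' : ∀ l ∈ Q, (∀ r ∈ R, l.1 ⬝ᵥ reactionVector r = 0) → ∀ y, y - c ∈ stoichSubspace R →
      ∀ T, T₀ ≤ T → l.1 ⬝ᵥ y ≤ l.2 T := by
    intro l hl h y hy T hT
    have h1 := R92.dot_eq_zero_of_mem h hy
    rw [dotProduct_sub] at h1
    have h2 := (hT₀ T hT).2 l hl
    linarith
  -- invariance of each polyhedron
  have hinv : ∀ (v : (Fin d → ℝ) → (Fin d → ℝ)) (x : ℝ → (Fin d → ℝ)), IsForwardSolution v x →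
      (∀ y, v y ∈ stoichSubspace R) → x 0 - c ∈ stoichSubspace R → ∀ T, T₀ ≤ T →
      (∀ y ∈ R92.poly Q T, v y = field R k y) → ∀ a, 0 ≤ a → x a ∈ R92.poly Q T →
      ∀ t, a ≤ t → x t ∈ R92.poly Q T := by
    intro v x hx hv h0 T hT hvf a ha hxa t ht
    have := R92.moving hx hQ hcont (T₀ := T) (T₁ := T) (ε := 0) (M := 0) (a := a) (b := t) le_rfl ha
      (by simp) (by
        intro l _ T1 h1 T2 h2 _
        rw [le_antisymm h1.2 h1.1, le_antisymm h2.2 h2.1]; simp) (by
        intro l hl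
        by_cases h : ∀ r ∈ R, l.1 ⬝ᵥ reactionVector r = 0
        · left
          intro s hs T1 h1
          exact hperp' l hl h _ (hperp v x hx hv h0 s hs) T1 (hT.trans h1.1)
        · right
          intro T1 h1 y hy hact
          obtain rfl : T1 = T := le_antisymm h1.2 h1.1
          rw [hvf y hy]
          simpa using ((hT₀ T1 hT).1 y hy l hl hact).resolve_left h) hxa t ⟨ht, le_rfl⟩
    simpa using this
  refine ⟨R92.poly Q T₀ ∩ {y | y - c ∈ stoichSubspace R}, ?_, ⟨c, (hT₀ T₀ le_rfl).2, by simp⟩,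
    ?_, ?_, ?_, ?_⟩
  · intro y hy
    exact ⟨fun j => (hbox T₀ y hy.1 j).1, hy.2⟩
  · refine (isCompact_Icc (a := (0 : Fin d → ℝ)) (b := fun _ => ρ T₀)).of_isClosed_subset
      ((R92.isClosed_poly Q T₀).inter ?_) fun y hy => hIcc T₀ T₀ le_rfl y hy.1
    exact (stoichSubspace R).closed_of_finiteDimensional.preimage (by fun_prop)
  · refine (R92.convex_poly Q T₀).inter ?_
    intro x hx y hy a b _ _ hab
    have := (stoichSubspace R).add_mem ((stoichSubspace R).smul_mem a hx)
      ((stoichSubspace R).smul_mem b hy)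
    have h : a • x + b • y - c = a • (x - c) + b • (y - c) := by
      rw [smul_sub, smul_sub, sub_add_sub_comm, ← add_smul, hab, one_smul]
    change a • x + b • y - c ∈ stoichSubspace R
    rw [h]; exact this
  · intro x hx h0 t ht
    exact ⟨hinv _ x hx (R92.field_mem R k) h0.2 T₀ le_rfl (fun _ _ => rfl) 0 le_rfl h0.1 t ht,
      hperp _ x hx (R92.field_mem R k) h0.2 t ht⟩
  · intro x₀ hx₀
    obtain ⟨T₁, hT₁, hx₁⟩ : ∃ T₁, T₀ ≤ T₁ ∧ x₀ ∈ R92.poly Q T₁ :=
      ((Filter.eventually_ge_atTop T₀).and (hexh x₀ hx₀.1)).exists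
    obtain ⟨Kf, hKf⟩ : ∃ Kf, LipschitzOnWith Kf (field R k)
        (Set.Icc (0 : Fin d → ℝ) (fun _ => ρ T₁)) :=
      (R92.field_contDiff R k).locallyLipschitz.locallyLipschitzOn.exists_lipschitzOnWith_of_compact
        isCompact_Icc
    have hstay : ∀ x : ℝ → (Fin d → ℝ), IsForwardSolution (field R k) x → x 0 = x₀ →
        ∀ t, 0 ≤ t → x t ∈ R92.poly Q T₁ := by
      intro x hx h0 t ht
      exact hinv _ x hx (R92.field_mem R k) (h0 ▸ hx₀.2) T₁ hT₁ (fun _ _ => rfl) 0 le_rfl
        (h0 ▸ hx₁) t ht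
    refine ⟨?_, ?_, ?_⟩
    · have hρ0 : 0 ≤ ρ T₁ := by
        have := hbox T₁ x₀ hx₁ ⟨0, hd⟩
        linarith [this.1, this.2]
      obtain ⟨B, hB⟩ := (isCompact_Icc (a := (0 : Fin d → ℝ)) (b := fun _ => ρ T₁)).exists_bound_of_continuousOn
        (R92.field_contDiff R k).continuous.continuousOn
      have hL : LipschitzWith (Kf * 1) (field R k ∘ R92.clamp (ρ T₁)) := by
        rw [← lipschitzOnWith_univ]
        exact hKf.comp (R92.clamp_lipschitz _).lipschitzOnWith fun y _ => R92.clamp_mem hρ0 y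
      obtain ⟨x, hx, h0⟩ := R92.exists_fwd (L := B.toNNReal) hL
        (fun y => (hB _ (R92.clamp_mem hρ0 y)).trans (Real.le_coe_toNNReal B)) x₀
      have heq : ∀ y ∈ R92.poly Q T₁, (field R k ∘ R92.clamp (ρ T₁)) y = field R k y := by
        intro y hy
        simp only [Function.comp]
        rw [R92.clamp_eq (hIcc T₁ T₁ le_rfl y hy)]
      refine ⟨x, fun t ht => ?_, h0⟩
      have := hinv _ x hx (fun y => R92.field_mem R k _) (h0 ▸ hx₀.2) T₁ hT₁ heq 0 le_rfl
        (h0 ▸ hx₁) t ht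
      rw [← heq _ this]
      exact hx t ht
    · intro x x' hx hx' h0 h0' t ht
      exact ODE_solution_unique_of_mem_Icc_right (v := fun _ => field R k)
        (s := fun _ => Set.Icc (0 : Fin d → ℝ) (fun _ => ρ T₁)) (a := 0) (b := t) (fun _ _ => hKf)
        ((R92.fwd_continuousOn hx).mono Set.Icc_subset_Ici_self)
        (fun s hs => R92.fwd_right hx hs.1)
        (fun s hs => hIcc T₁ T₁ le_rfl _ (hstay x hx h0 s hs.1))
        ((R92.fwd_continuousOn hx').mono Set.Icc_subset_Ici_self)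
        (fun s hs => R92.fwd_right hx' hs.1)
        (fun s hs => hIcc T₁ T₁ le_rfl _ (hstay x' hx' h0' s hs.1)) (by rw [h0, h0']) ⟨ht, le_rfl⟩
    · intro x hx h0
      refine ⟨fun t ht j => (hbox T₁ _ (hstay x hx h0 t ht) j).1, ?_⟩
      have hcl : x 0 - c ∈ stoichSubspace R := h0 ▸ hx₀.2
      -- a common Lipschitz constant
      obtain ⟨M, hM⟩ : ∃ M : ℝ, ∀ l ∈ Q, ∀ T ∈ Set.Icc T₀ T₁, ∀ T' ∈ Set.Icc T₀ T₁, T' ≤ T →
          l.2 T - M * (T - T') ≤ l.2 T' := by
        have : ∀ᶠ M : ℝ in Filter.atTop, ∀ l ∈ Q, ∀ T ∈ Set.Icc T₀ T₁, ∀ T' ∈ Set.Icc T₀ T₁,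
            T' ≤ T → l.2 T - M * (T - T') ≤ l.2 T' := by
          rw [Filter.eventually_all_finite hQ]
          intro l hl
          obtain ⟨K, hK⟩ := (hlip l hl).locallyLipschitzOn.exists_lipschitzOnWith_of_compact
            (isCompact_Icc (a := T₀) (b := T₁))
          filter_upwards [Filter.eventually_ge_atTop (K : ℝ)] with M hM T hT T' hT' hle
          have h1 := hK.dist_le_mul T hT T' hT'
          rw [Real.dist_eq, Real.dist_eq, abs_of_nonneg (sub_nonneg.2 hle)] at h1
          have h2 := le_abs_self (l.2 T - l.2 T')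
          have h3 : (K : ℝ) * (T - T') ≤ M * (T - T') := by gcongr
          linarith
        exact this.exists
      -- a small speed
      obtain ⟨ε, hε, hεs⟩ : ∃ ε : ℝ, 0 < ε ∧ ∀ l ∈ Q, ¬ (∀ r ∈ R, l.1 ⬝ᵥ reactionVector r = 0) →
          ∀ T ∈ Set.Icc T₀ T₁, ∀ y ∈ R92.poly Q T, l.1 ⬝ᵥ y = l.2 T →
          l.1 ⬝ᵥ field R k y + M * ε < 0 := by
        have : ∀ᶠ ε : ℝ in nhdsWithin 0 (Set.Ioi 0), ∀ l ∈ Q,
            ¬ (∀ r ∈ R, l.1 ⬝ᵥ reactionVector r = 0) →
            ∀ T ∈ Set.Icc T₀ T₁, ∀ y ∈ R92.poly Q T, l.1 ⬝ᵥ y = l.2 T →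
            l.1 ⬝ᵥ field R k y + M * ε < 0 := by
          rw [Filter.eventually_all_finite hQ]
          intro l hl
          by_cases h : ∀ r ∈ R, l.1 ⬝ᵥ reactionVector r = 0
          · exact Filter.Eventually.of_forall fun _ h' => absurd h h'
          set C : Set (ℝ × (Fin d → ℝ)) := {z | z.1 ∈ Set.Icc T₀ T₁ ∧ z.2 ∈ R92.poly Q z.1 ∧
            l.1 ⬝ᵥ z.2 = l.2 z.1} with hC
          have hCc : IsCompact C := by
            refine ((isCompact_Icc (a := T₀) (b := T₁)).prod
              (isCompact_Icc (a := (0 : Fin d → ℝ)) (b := fun _ => ρ T₁))).of_isClosed_subset ?_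
              fun z hz => ⟨hz.1, hIcc T₁ z.1 hz.1.2 _ hz.2.1⟩
            refine (isClosed_Icc.preimage continuous_fst).inter (IsClosed.inter ?_ ?_)
            · have : {z : ℝ × (Fin d → ℝ) | z.2 ∈ R92.poly Q z.1} =
                  ⋂ l' ∈ Q, {z : ℝ × (Fin d → ℝ) | l'.1 ⬝ᵥ z.2 ≤ l'.2 z.1} := by
                ext z; simp [R92.poly]
              change IsClosed {z : ℝ × (Fin d → ℝ) | z.2 ∈ R92.poly Q z.1}
              rw [this]
              exact isClosed_biInter fun l' hl' => isClosed_le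
                ((R92.dotL l'.1).continuous.comp continuous_snd)
                ((hcont l' hl').comp continuous_fst)
            · exact isClosed_eq ((R92.dotL l.1).continuous.comp continuous_snd)
                ((hcont l hl).comp continuous_fst)
          obtain ⟨γ, hγ, hγ'⟩ : ∃ γ : ℝ, γ < 0 ∧ ∀ z ∈ C, l.1 ⬝ᵥ field R k z.2 ≤ γ := by
            rcases C.eq_empty_or_nonempty with h0 | h0
            · exact ⟨-1, by norm_num, by simp [h0]⟩
            · obtain ⟨z, hz, hmax⟩ := hCc.exists_isMaxOn h0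
                (f := fun z => l.1 ⬝ᵥ field R k z.2)
                ((R92.dotL l.1).continuous.comp
                  ((R92.field_contDiff R k).continuous.comp continuous_snd)).continuousOn
              exact ⟨_, ((hT₀ z.1 hz.1.1).1 z.2 hz.2.1 l hl hz.2.2).resolve_left h,
                fun w hw => hmax hw⟩
          have h1 : Filter.Tendsto (fun ε : ℝ => γ + M * ε) (nhdsWithin 0 (Set.Ioi 0))
              (nhds (γ + M * 0)) :=
            ((by fun_prop : Continuous fun ε : ℝ => γ + M * ε).tendsto 0).mono_left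
              nhdsWithin_le_nhds
          filter_upwards [h1.eventually_lt_const (by simpa using hγ)] with ε hε _ T hT y hy hact
          have := hγ' (T, y) ⟨hT, hy, hact⟩
          simp only at this
          linarith
        obtain ⟨ε, h1, h2⟩ := (this.and self_mem_nhdsWithin).exists
        exact ⟨ε, h2, h1⟩
      set b : ℝ := (T₁ - T₀) / ε with hb
      have hb0 : 0 ≤ b := div_nonneg (sub_nonneg.2 hT₁) hε.le
      have hbe : T₁ - ε * (b - 0) = T₀ := by rw [hb]; field_simp; ring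
      have h1 := R92.moving hx hQ hcont (T₀ := T₀) (T₁ := T₁) (ε := ε) (M := M) (a := 0) (b := b)
        hε.le le_rfl hbe.ge hM (by
          intro l hl
          by_cases h : ∀ r ∈ R, l.1 ⬝ᵥ reactionVector r = 0
          · left
            intro s hs T hT
            exact hperp' l hl h _ (hperp _ x hx (R92.field_mem R k) hcl s hs) T hT.1
          · exact Or.inr (hεs l hl h)) (h0 ▸ hx₁) b ⟨hb0, le_rfl⟩
      rw [hbe] at h1
      refine ⟨b, hb0, fun t ht => ⟨?_, hperp _ x hx (R92.field_mem R k) hcl t (hb0.trans ht)⟩⟩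
      exact hinv _ x hx (R92.field_mem R k) hcl T₀ le_rfl (fun _ _ => rfl) b hb0 h1 t ht

end Crest.Agent.S0122
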