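import Crest.Statements.S0145
import Crest.Agent.R110w.D

set_option autoImplicit false
open Crest Crest.AnalysisR Crest.AnalysisR.OperatorAlgebra

namespace Crest.Agent.S0145

/-- Let C be a complex C⋆-algebra, possibly without unit, in which every positive element h is properly infinite (for every ε > 0 some r, s satisfy ‖r⋆hr − h‖ < ε, ‖s⋆hs − h‖ < ε, ‖r⋆hs‖ < ε; this is h ⊕ h ≾ h written entrywise). Then for all positive a, b, every c and every ε > 0 there are s, t in C with ‖s⋆as − a‖ < ε, ‖t⋆bt − b‖ < ε and ‖s⋆ct‖ < ε. Positive elements are those of the form x⋆x. -/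
theorem result
    (C : Type*) [NonUnitalCStarAlgebra C]
    (hC : ∀ x : C, Crest.OpAlg.IsProperlyInfinite (star x * x))
    (a b c : C) (ha : ∃ x : C, a = star x * x) (hb : ∃ y : C, b = star y * y) (ε : ℝ) (hε : 0 < ε) :
    ∃ s t : C, ‖star s * a * s - a‖ < ε ∧ ‖star t * b * t - b‖ < ε ∧ ‖star s * c * t‖ < ε := by
  letI : PartialOrder (Unitization ℂ C) := CStarAlgebra.spectralOrder _
  haveI : StarOrderedRing (Unitization ℂ C) := CStarAlgebra.spectralOrderedRing _
  have lift : ∀ x : Unitization ℂ C, x.fst = 0 → ∃ y : C, x = y := fun x hx =>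
    ⟨x.snd, by
      conv_lhs => rw [← Unitization.inl_fst_add_inr_snd_eq x, hx]
      simp⟩
  have hci : R110w.CI {x : Unitization ℂ C | x.fst = 0} :=
    ⟨isClosed_eq Unitization.continuous_fst continuous_const,
      fun hx hy => by simp_all, fun a hx => by simp_all, fun a hx => by simp_all⟩
  have hS : R110w.Ctx {x : Unitization ℂ C | x.fst = 0} := by
    refine ⟨hci, fun h hh h0 => ?_⟩
    obtain ⟨y, -, y1, y2⟩ := R110w.ex_sqrt h0
    obtain ⟨z, rfl⟩ := lift y (hci.root (by rwa [y1, y2]))
    have e : h = ((star z * z : C) : Unitization ℂ C) := by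
      rw [Unitization.inr_mul, Unitization.inr_star, y1, y2]
    choose r s h1 h2 h3 using fun n : ℕ => hC z (1 / ((n : ℝ) + 1)) (by positivity)
    have key : ∀ (u : ℕ → C) (v : C), (∀ n : ℕ, ‖u n - v‖ < 1 / ((n : ℝ) + 1)) →
        Filter.Tendsto (fun n => (u n : Unitization ℂ C)) Filter.atTop (nhds v) := fun u v hu => by
      refine (Unitization.continuous_inr.tendsto v).comp ?_
      rw [tendsto_iff_norm_sub_tendsto_zero]
      exact squeeze_zero (fun _ => norm_nonneg _) (fun n => (hu n).le)
        tendsto_one_div_add_atTop_nhds_zero_nat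
    refine ⟨fun n => r n, fun n => s n, ?_, ?_, ?_⟩
    · simpa only [e, Unitization.inr_mul, Unitization.inr_star] using key _ _ h1
    · simpa only [e, Unitization.inr_mul, Unitization.inr_star] using key _ _ h2
    · have := key (fun n => star (r n) * (star z * z) * s n) 0 fun n => by
        simpa only [sub_zero] using h3 n
      simp only [Unitization.inr_mul, Unitization.inr_star, Unitization.inr_zero] at this
      simpa only [e, Unitization.inr_mul, Unitization.inr_star] using this
  obtain ⟨x, rfl⟩ := ha
  obtain ⟨y, rfl⟩ := hb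
  obtain ⟨s, hs, t, ht, h1, h2, h3⟩ := hS.final (a := ((star x * x : C) : Unitization ℂ C))
    (b := ((star y * y : C) : Unitization ℂ C))
    (by rw [Unitization.inr_mul, Unitization.inr_star]; exact star_mul_self_nonneg _)
    (Unitization.fst_inr ℂ _)
    (by rw [Unitization.inr_mul, Unitization.inr_star]; exact star_mul_self_nonneg _)
    (Unitization.fst_inr ℂ _) c hε
  obtain ⟨s, rfl⟩ := lift s hs
  obtain ⟨t, rfl⟩ := lift t ht
  refine ⟨s, t, ?_, ?_, ?_⟩
  · rwa [← Unitization.inr_star, ← Unitization.inr_mul, ← Unitization.inr_mul,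
      ← Unitization.inr_sub, Unitization.norm_inr] at h1
  · rwa [← Unitization.inr_star, ← Unitization.inr_mul, ← Unitization.inr_mul,
      ← Unitization.inr_sub, Unitization.norm_inr] at h2
  · rwa [← Unitization.inr_star, ← Unitization.inr_mul, ← Unitization.inr_mul,
      Unitization.norm_inr] at h3

end Crest.Agent.S0145
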