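import Crest.Statements.S0150
import Crest.Agent.R113a.Lat
import Crest.Agent.R113a.WtB
import Crest.Agent.R113a.Trans

set_option autoImplicit false
open Crest.AnalysisR.TwoAdic MeasureTheory
attribute [local instance] Crest.AnalysisR.TwoAdic.borelTwoAdic Crest.AnalysisR.TwoAdic.borelSpace_twoAdic
open Crest Crest.AnalysisR Crest.AnalysisR.TwoAdic

namespace Crest.Agent.S0150

open Crest.Agent.R113a

/-- On L²(ℤ₂; ℓ²(ℤ)) (2-adic integers, Haar probability) measurable weights β_j > 0, b_j ∈ [0,1] give fibre shifts S_x δ_j = β_j(x) δ_{j+1} forming a bounded S and a contraction V commuting with S, acting along x ↦ x + 1 by V_x δ_j = b_j(x) δ_{j−1}, with: each S_x has exactly the tails, 0, ℓ²(ℤ) as closed invariant subspaces; ‖S‖ = e^{−10}, ‖Sⁿ‖ ≤ exp(−10⌊(n+1)²/4⌋); off a null set b_j > 0 and V_x maps each tail densely into the next lower one; S, V and bounded multipliers act transitively. -/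
theorem result :
    ∃ (β b : ℤ → ℤ_[2] → ℝ) (Sfib Vfib : ℤ_[2] → (seqHilbert →L[ℂ] seqHilbert))
      (S V : fibreSpace →L[ℂ] fibreSpace),
      (∀ j, Measurable (β j)) ∧ (∀ j x, 0 < β j x) ∧
      (∀ x j, Sfib x (basisVec j) = (β j x : ℂ) • basisVec (j + 1)) ∧
      (∀ f : fibreSpace, ∀ᵐ x ∂haarTwoAdic, (S f : ℤ_[2] → seqHilbert) x = Sfib x ((f : ℤ_[2] → seqHilbert) x)) ∧
      (∀ x, ∀ W : Submodule ℂ seqHilbert, IsClosed (W : Set seqHilbert) →
        ((∀ v ∈ W, Sfib x v ∈ W) ↔ (W = ⊥ ∨ W = ⊤ ∨ ∃ h : ℤ, W = tailSpace h))) ∧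
      S ≠ 0 ∧ ‖S‖ = Real.exp (-10) ∧
      (∀ n : ℕ, 1 ≤ n → ‖S ^ n‖ ≤ Real.exp (-10 * (((n + 1) ^ 2 / 4 : ℕ) : ℝ))) ∧
      ‖V‖ ≤ 1 ∧ V * S = S * V ∧
      (∀ j, Measurable (b j)) ∧ (∀ j x, 0 ≤ b j x ∧ b j x ≤ 1) ∧
      (∀ x j, Vfib x (basisVec j) = (b j x : ℂ) • basisVec (j - 1)) ∧
      (∀ f : fibreSpace, ∀ᵐ x ∂haarTwoAdic,
        (V f : ℤ_[2] → seqHilbert) (x + 1) = Vfib x ((f : ℤ_[2] → seqHilbert) x)) ∧
      (∃ N : Set ℤ_[2], haarTwoAdic N = 0 ∧ ∀ x, x ∉ N →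
        (∀ j, 0 < b j x) ∧
        (∀ h : ℤ, closure (Vfib x '' (tailSpace h : Set seqHilbert)) = (tailSpace (h - 1) : Set seqHilbert)) ∧
        closure (Set.range (Vfib x)) = Set.univ) ∧
      (∀ W : Submodule ℂ fibreSpace, IsClosed (W : Set fibreSpace) →
        (∀ f ∈ W, S f ∈ W) → (∀ f ∈ W, V f ∈ W) →
        (∀ g : ℤ_[2] → ℂ, Measurable g → (∃ C : ℝ, ∀ x, ‖g x‖ ≤ C) →
          ∀ f ∈ W, ∀ f' : fibreSpace,
            (∀ᵐ x ∂haarTwoAdic, (f' : ℤ_[2] → seqHilbert) x = g x • (f : ℤ_[2] → seqHilbert) x) → f' ∈ W) →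
        W = ⊥ ∨ W = ⊤) := by
  obtain ⟨b, hbm, hb01, hb⟩ := exists_b
  have hβ : ∀ j x, |Real.exp (-aa j x)| ≤ Real.exp (-10) := fun j x => by
    rw [abs_of_pos (Real.exp_pos _), Real.exp_le_exp]
    have := le_aa j x
    have := abs_nonneg (j : ℝ)
    linarith
  have hb1 : ∀ j x, |b j x| ≤ 1 := fun j x => by
    rw [abs_of_nonneg (hb01 j x).1]; exact (hb01 j x).2
  choose T hT using fun x => exists_sh (fun j => Real.exp (-aa j x)) _ (fun j => hβ j x) 1
  choose U hU using fun x => exists_sh (fun j => b j x) _ (fun j => hb1 j x) (-1)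
  have hβm : ∀ j, Measurable fun x => Real.exp (-aa j x) := fun j => (measurable_aa j).neg.exp
  obtain ⟨S, hS⟩ := exists_fib T (fun j x => Real.exp (-aa j x)) 1 _ hT hβm hβ 0
  obtain ⟨V, hV⟩ := exists_fib U b (-1) _ hU hbm hb1 1
  have hS0 := hS
  simp only [add_zero] at hS
  have hn : ‖S‖ = Real.exp (-10) := by
    refine le_antisymm (norm_fib_le (fun x => (hT x).norm_le fun j => hβ j x) hS0)
      (le_norm_fib (fun x => ?_) hS)
    rw [(hT x).basis, norm_smul, norm_basisVec, aa_zero, mul_one, Complex.norm_real,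
      Real.norm_eq_abs, abs_of_pos (Real.exp_pos _)]
  refine ⟨fun j x => Real.exp (-aa j x), b, T, U, S, V, hβm, fun j x => Real.exp_pos _,
    fun x j => (hT x).basis j, hS, fun x W hW => lattice (gap_aa x) (hT x) W hW, ?_, hn, ?_,
    norm_fib_le (fun x => (hU x).norm_le fun j => hb1 j x) hV, fib_comm hS hV fun x hx => ?_,
    hbm, hb01, fun x j => (hU x).basis j, hV,
    ⟨{-1}, haar_singleton _, fun x hx => ⟨fun j => (hb x hx j).1,
      fun h => (hU x).closure_tail (fun j => (hb x hx j).1.ne') h,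
      (hU x).closure_range fun j => (hb x hx j).1.ne'⟩⟩,
    fun W hW h1 h2 h3 => transitive hS hV (fun x => supp_lt (gap_aa x) (hT x)) hU
      (fun x hx j => (hb x hx j).1.ne') W hW h1 h2 h3⟩
  · rintro rfl
    rw [norm_zero] at hn
    exact (Real.exp_pos _).ne hn
  · intro n hn1
    refine norm_fib_le (T := fun x => T x ^ n) (k := 0) (fun x => ?_)
      (fun f => by simpa only [add_zero] using fib_pow hS n f)
    obtain ⟨A, hA⟩ := exists_prim fun j => aa j x
    have h1 : IsSh (T x) (fun j => Real.exp (A j - A (j + 1))) 1 := by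
      convert hT x using 3 with j
      rw [← hA j]; ring
    refine (h1.pow n).norm_le fun j => ?_
    rw [abs_of_pos (Real.exp_pos _), Real.exp_le_exp]
    exact sum_abs A (fun i => (hA i).symm ▸ le_aa i x) n hn1 j
  · have h1 := (hT x).mul (hU x)
    have h2 := (hU x).mul (hT (x + 1))
    refine h1.unique ?_
    have e : (fun j => b (j + 1) x * Real.exp (-aa j x)) =
        fun j => Real.exp (-aa (j + -1) (x + 1)) * b j x := funext fun j => (hb x hx j).2
    rw [e, add_comm (1 : ℤ) (-1)]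
    exact h2

end Crest.Agent.S0150
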