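import Crest.Statements.S0160
import Crest.Agent.R120.Build
import Crest.Agent.R120.Tower

set_option autoImplicit false
open Crest Crest.AnalysisR Crest.AnalysisR.OperatorAlgebra

namespace Crest.Agent.S0160

/-- There is a unital complex C⋆-algebra A that is infinite-dimensional, is simple (its only closed two-sided ideals are the zero ideal and A), carries a faithful tracial state, and whose irreducible representations on complex Hilbert spaces are pairwise unitarily equivalent. A representation is a ⋆-homomorphism into the bounded operators on a Hilbert space, not required to preserve the unit; irreducible ones are nonzero by definition; A and the Hilbert spaces are taken in the lowest universe. -/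
theorem result :
    ∃ (A : Type) (_ : CStarAlgebra A),
      ¬ FiniteDimensional ℂ A ∧
      (∀ I : TwoSidedIdeal A, IsClosed (I : Set A) → I = ⊥ ∨ I = ⊤) ∧
      (∃ τ : A →ₗ[ℂ] ℂ, Crest.OpAlg.IsFaithfulTracialState τ) ∧
      ∀ (H₁ : Type) [NormedAddCommGroup H₁] [InnerProductSpace ℂ H₁] [CompleteSpace H₁]
        (H₂ : Type) [NormedAddCommGroup H₂] [InnerProductSpace ℂ H₂] [CompleteSpace H₂]
        (π₁ : A →⋆ₙₐ[ℂ] (H₁ →L[ℂ] H₁)) (π₂ : A →⋆ₙₐ[ℂ] (H₂ →L[ℂ] H₂)),
        Crest.OpAlg.IsIrreducibleRep π₁ → Crest.OpAlg.IsIrreducibleRep π₂ →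
          Crest.OpAlg.AreUnitarilyEquivalent π₁ π₂ := by
  obtain ⟨t⟩ := R120.exists_tow
  obtain ⟨A, _, M, K, _, _, _, ρ, ξ, h1, h2, h3, h4⟩ :=
    R120.exists_model t.uhf t.D.subtype fun _ => rfl
  exact ⟨A, inferInstance, M.main h1 h2 h3 h4⟩

end Crest.Agent.S0160
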