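import Crest.Statements.S0161
import Crest.Agent.R121.Final
import Crest.Agent.R121.Inf
import Crest.Agent.R121.Quasi
import Crest.Agent.R121.Fourier

set_option autoImplicit false
open Crest Crest.AnalysisR Crest.AnalysisR.OperatorAlgebra

namespace Crest.Agent.S0161

/-- Let M be a von Neumann algebra on a complex Hilbert space and n ≥ 1. Every bounded complex-multilinear map f from (n+1)-tuples of elements of M to M whose Hochschild differential vanishes is the Hochschild differential of some bounded complex-multilinear map g on n-tuples: f = dg. Here (dg)(a₀,…,a_n) = a₀ g(a₁,…,a_n) + ∑_{j<n} (−1)^(j+1) g(…, a_j a_{j+1}, …) + (−1)^(n+1) g(a₀,…,a_{n−1}) a_n. -/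
theorem result
    (H : Type*) [NormedAddCommGroup H] [InnerProductSpace ℂ H] [CompleteSpace H]
    (M : VonNeumannAlgebra H) (n : ℕ) (hn : 1 ≤ n)
    (f : ContinuousMultilinearMap ℂ (fun _ : Fin (n + 1) => M.toStarSubalgebra) M.toStarSubalgebra)
    (hf : ∀ a : Fin (n + 2) → M.toStarSubalgebra, Crest.OpAlg.hochschildDiff f a = 0) :
    ∃ g : ContinuousMultilinearMap ℂ (fun _ : Fin n => M.toStarSubalgebra) M.toStarSubalgebra,
      ∀ a : Fin (n + 1) → M.toStarSubalgebra, Crest.OpAlg.hochschildDiff g a = f a := by
  exact R121.bridgeStmt (R121.Alg M) n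
    (fun C g hC hg hd => R121.cob_all R121.fourierStmt R121.quasiStmt R121.infStmt M n C g hC hg hd)
    f hf

end Crest.Agent.S0161
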