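import Crest.Statements.S0167
import Crest.Agent.R125.Daugavet
import Crest.Agent.R125.L1Lower

set_option autoImplicit false
open Crest Crest.AnalysisR

namespace Crest.Agent.S0167

/-- Let E be an infinite-dimensional closed subspace of the real L¹ of a probability space whose closed unit ball is totally bounded for convergence in measure and whose norm has the Daugavet property. Then at every unit x ∈ E and every t > 0 the averaged midpoint quantity sup_F inf_y ((‖x+ty‖+‖x-ty‖)/2 - 1) equals max(t/2, t-1) and the one-sided one sup_F inf_y (‖x+ty‖ - 1) equals max(0, t-2), as matching lower and upper bounds, and E admits no equivalent asymptotically uniformly convex norm. -/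
theorem result (Ω : Type) [MeasurableSpace Ω] (P : MeasureTheory.Measure Ω) [MeasureTheory.IsProbabilityMeasure P]
    (E : Submodule ℝ (MeasureTheory.Lp ℝ 1 P)) (hcl : IsClosed (E : Set (MeasureTheory.Lp ℝ 1 P)))
    (hinf : ¬ FiniteDimensional ℝ E)
    (htb : Crest.AnalysisR.L1Subspace.UnitBallTotallyBoundedInMeasure P E)
    (hD : Crest.AnalysisR.L1Subspace.HasDaugavetProperty E) :
    (∀ t : ℝ, 0 < t →
      (Crest.AnalysisR.L1Subspace.toRealBanach P E hcl).MidpointModulusGE
          (Crest.AnalysisR.L1Subspace.toRealBanach P E hcl).norm t (max (t / 2) (t - 1)) ∧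
        (Crest.AnalysisR.L1Subspace.toRealBanach P E hcl).MidpointModulusLE
          (Crest.AnalysisR.L1Subspace.toRealBanach P E hcl).norm t (max (t / 2) (t - 1)) ∧
        (Crest.AnalysisR.L1Subspace.toRealBanach P E hcl).OneSidedModulusGE
          (Crest.AnalysisR.L1Subspace.toRealBanach P E hcl).norm t (max 0 (t - 2)) ∧
        (Crest.AnalysisR.L1Subspace.toRealBanach P E hcl).OneSidedModulusLE
          (Crest.AnalysisR.L1Subspace.toRealBanach P E hcl).norm t (max 0 (t - 2))) ∧
      ∀ N : E → ℝ, (Crest.AnalysisR.L1Subspace.toRealBanach P E hcl).IsEquivNorm N →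
        ¬ (Crest.AnalysisR.L1Subspace.toRealBanach P E hcl).IsAUC N := by
  refine ⟨fun t ht => ⟨?_, ?_, ?_, ?_⟩, fun N hN =>
    R125.daug_not_isAUC (i3 := hcl.completeSpace_coe) hD hinf N hN⟩
  · intro x hx η hη
    change E at x
    change ‖x‖ = 1 at hx
    obtain ⟨F, hF, hFy⟩ := R125.L1_midpoint_lower E htb x hx ht hη
    refine ⟨F, hF, fun y hyF hy => ?_⟩
    change E at y
    change ‖y‖ = 1 at hy
    change max (t / 2) (t - 1) - η ≤ (‖x + t • y‖ + ‖x - t • y‖) / 2 - 1
    have h1 := hFy y hyF hy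
    have h2 : ‖(x + t • y) - (x - t • y)‖ ≤ ‖x + t • y‖ + ‖x - t • y‖ := norm_sub_le _ _
    have h3 : (x + t • y) - (x - t • y) = (2 * t) • y := by
      rw [mul_smul, two_smul]; abel
    rw [h3, norm_smul, hy, mul_one, Real.norm_of_nonneg (by positivity)] at h2
    rcases max_choice (t / 2) (t - 1) with h | h <;> rw [h] <;> linarith
  · intro x hx F hF η hη
    change E at x
    change ‖x‖ = 1 at hx
    obtain ⟨y, hyF, hy1, hy⟩ := R125.daug_oneSided hD x hx hF hη ht
    refine ⟨y, hyF, hy1, ?_⟩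
    change (‖x + t • y‖ + ‖x - t • y‖) / 2 - 1 ≤ max (t / 2) (t - 1) + η
    have h2 : ‖x - t • y‖ ≤ 1 + t := by
      calc ‖x - t • y‖ ≤ ‖x‖ + ‖t • y‖ := norm_sub_le _ _
        _ = 1 + t := by rw [norm_smul, hx, hy1, mul_one, Real.norm_of_nonneg ht.le]
    have h3 := le_max_left (t / 2) (t - 1)
    have h4 := le_max_right (t / 2) (t - 1)
    rcases max_choice 0 (t - 2) with h | h <;> rw [h] at hy <;> linarith
  · intro x hx η hη
    change E at x
    change ‖x‖ = 1 at hx
    obtain ⟨φ, hφ, hφx⟩ := exists_dual_vector ℝ x (by rw [hx]; exact one_ne_zero)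
    refine ⟨{y : E | φ y = 0}, R125.cof_ker φ, fun y hyF hy => ?_⟩
    change E at y
    change ‖y‖ = 1 at hy
    change φ y = 0 at hyF
    change max 0 (t - 2) - η ≤ ‖x + t • y‖ - 1
    have h1 : (1 : ℝ) ≤ ‖x + t • y‖ := by
      calc (1 : ℝ) = φ (x + t • y) := by
            rw [map_add, map_smul, hyF, hφx, hx]; simp
        _ ≤ ‖φ (x + t • y)‖ := Real.le_norm_self _
        _ ≤ ‖φ‖ * ‖x + t • y‖ := φ.le_opNorm _
        _ = _ := by rw [hφ, one_mul]
    have h2 : ‖(x + t • y) - x‖ ≤ ‖x + t • y‖ + ‖x‖ := norm_sub_le _ _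
    rw [add_sub_cancel_left, norm_smul, hy, hx, mul_one, Real.norm_of_nonneg ht.le] at h2
    rcases max_choice 0 (t - 2) with h | h <;> rw [h] <;> linarith
  · intro x hx F hF η hη
    exact R125.daug_oneSided hD x hx hF hη ht

end Crest.Agent.S0167
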