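import Crest.Statements.S0169
import Crest.Agent.R125.Products

set_option autoImplicit false
open MeasureTheory ProbabilityTheory
open Crest Crest.AnalysisR

namespace Crest.Agent.S0169

/-- Let ν be a Borel probability law on ℝ carried by (0,∞), not a point mass, with mean 1 and finite second moment, and W an independent family of real random variables on a probability space indexed by the vertices of the countably branching tree (finite lists of naturals; root [], parent of a :: v is v), each non-root one with law ν. Then the closed linear span in L¹ of the path products ∏_{root ≺ u ≼ v} W_u is infinite-dimensional and has no equivalent asymptotically uniformly convex norm. -/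
theorem result (ν : Measure ℝ) [IsProbabilityMeasure ν] (hpos : ν (Set.Ioi 0) = 1)
    (hnc : ∀ c : ℝ, ν ≠ Measure.dirac c) (hmean : ∫ x, x ∂ν = 1)
    (hm2 : Integrable (fun x : ℝ => x ^ 2) ν)
    (Ω : Type) [MeasurableSpace Ω] (μ : Measure Ω) [IsProbabilityMeasure μ]
    (W : List ℕ → Ω → ℝ) (hW : Crest.AnalysisR.TreeProduct.IsRealization ν μ W) :
    ¬ FiniteDimensional ℝ (Crest.AnalysisR.TreeProduct.productSpan μ W) ∧
      ∀ N : (Crest.AnalysisR.TreeProduct.spanBanach μ W).X → ℝ,
        (Crest.AnalysisR.TreeProduct.spanBanach μ W).IsEquivNorm N →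
          ¬ (Crest.AnalysisR.TreeProduct.spanBanach μ W).IsAUC N := by
  have h1 := R125.integral_abs_eq_one hpos hmean
  have hδ := R125.integral_abs_sub_one_pos hnc hm2
  have hl : ∀ (v : List ℕ) (A : Finset ℕ) (a : ℕ → ℝ),
      ‖∑ n ∈ A, a n • (R125.prodVec hW hm2 (n :: v) - R125.prodVec hW hm2 v)‖ ≤
        √(∫ x, x ^ 2 ∂ν) * √(∑ n ∈ A, a n ^ 2) := fun v A a => by
    rw [R125.norm_sum_incr hW hm2 h1]
    exact R125.integral_abs_sum_le hW hmean hm2 v A a
  refine ⟨R125.not_finiteDimensional_of_upper_l2
    (fun n => R125.prodVec hW hm2 (n :: []) - R125.prodVec hW hm2 []) _ _ hδ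
    (fun n => (R125.norm_incr hW hm2 h1 [] n).ge) (hl []), fun N hN => ?_⟩
  exact R125.not_isAUC_of_tree
    (i3 := (Submodule.isClosed_topologicalClosure _).completeSpace_coe) _ 1 _ hδ
    (fun h => ⟨R125.prodVec hW hm2, fun s _ => (R125.norm_prodVec hW hm2 h1 s).le,
      fun s n _ => (R125.norm_incr hW hm2 h1 s n).ge, fun s _ => hl s⟩) N hN

end Crest.Agent.S0169
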