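import Crest.Statements.S0172
import Crest.Agent.R128.ProbE
import Crest.Agent.R128.Fin

set_option autoImplicit false
open Crest.AnalysisR.StandardFamily
open Crest Crest.AnalysisR Crest.AnalysisR.StandardFamily

namespace Crest.Agent.S0172

/-- For every sufficiently large parameter `k`, the standard map `(x, y) ↦ (x + y + k sin 2πx, y + k sin 2πx)` of the two-torus has a positive upper Lyapunov exponent on a set of positive area: the set of points `p` of the unit square for which some `c > 0` has `log ‖D(F^n)(p)‖ ≥ c·n` for infinitely many `n`, where `F` is the lift of the map to the plane, has positive Lebesgue measure. -/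
theorem result :
    ∃ k₀ : ℝ, 0 < k₀ ∧ ∀ k : ℝ, k₀ ≤ k →
      0 < MeasureTheory.volume ({p : ℝ × ℝ | ∃ c : ℝ, 0 < c ∧
          ∃ᶠ n : ℕ in Filter.atTop, c * n ≤ Real.log ‖fderiv ℝ (standardMapLift k)^[n] p‖} ∩
        Set.Ico (0 : ℝ) 1 ×ˢ Set.Ico (0 : ℝ) 1) := by
  obtain ⟨B₀, hB₀⟩ := Crest.Agent.R128.main_bound
  set B₁ : ℝ := max B₀ 2 with hB₁
  have hB₁2 : (2 : ℝ) ≤ B₁ := le_max_right _ _
  have hB₁0 : (0 : ℝ) < B₁ := by linarith
  have hpi := Real.pi_pos
  refine ⟨B₁ ^ 100 / (2 * Real.pi), by positivity, fun k hk => ?_⟩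
  have hk' : B₁ ^ 100 ≤ 2 * Real.pi * k := by
    rw [div_le_iff₀ (by positivity)] at hk
    linarith
  have hk0 : 0 ≤ 2 * Real.pi * k := le_trans (by positivity) hk'
  set B : ℝ := (2 * Real.pi * k) ^ (((100 : ℕ) : ℝ)⁻¹) with hB
  have hBk : 2 * Real.pi * k = B ^ 100 := (Real.rpow_inv_natCast_pow hk0 (by norm_num)).symm
  have hB0 : 0 ≤ B := Real.rpow_nonneg hk0 _
  have hBB : B₁ ≤ B := by
    by_contra hlt
    push Not at hlt
    have := pow_lt_pow_left₀ hlt hB0 (n := 100) (by norm_num)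
    linarith
  obtain ⟨q, hq, hu⟩ := hB₀ B (le_trans (le_max_left _ _) hBB) k hBk
  exact Crest.Agent.R128.final (le_trans hB₁2 hBB) hBk hq hu

end Crest.Agent.S0172
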