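import Crest.Statements.S0175
import Crest.Agent.R130.Final

set_option autoImplicit false
open MeasureTheory
open scoped ENNReal ContDiff
open Crest.AnalysisR.OT
open Crest Crest.AnalysisR Crest.AnalysisR.OT

namespace Crest.Agent.S0175

/-- For every d ≥ 2 and s > 0 there is a smooth, compactly supported, nonnegative ρ on ℝᵈ with integral 1 and smooth square root such that, for μ = ρ dx and the cost summing ‖xᵢ - xⱼ‖^(-s) over the three pairs of a triple: some coupling with all three marginals μ has finite cost, minimal among all such couplings; every pair of Borel maps T₂, T₃ pushing μ to itself gives the plan x ↦ (x, T₂ x, T₃ x) strictly larger cost; and such pairs have costs arbitrarily close to that minimum. -/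
theorem result
    (d : ℕ) (hd : 2 ≤ d) (s : ℝ) (hs : 0 < s) :
    ∃ ρ : EuclideanSpace ℝ (Fin d) → ℝ, (∀ x, 0 ≤ ρ x) ∧ ContDiff ℝ ∞ ρ ∧ HasCompactSupport ρ ∧
      ContDiff ℝ ∞ (fun x => Real.sqrt (ρ x)) ∧ ∫ x, ρ x = 1 ∧
      ∃ π₀ : Measure (EuclideanSpace ℝ (Fin d) × EuclideanSpace ℝ (Fin d) × EuclideanSpace ℝ (Fin d)),
        IsCoupling₃ (measOfDensity ρ) π₀ ∧ ∫⁻ p, tripleCost s p ∂π₀ < ⊤ ∧
        (∀ π : Measure (EuclideanSpace ℝ (Fin d) × EuclideanSpace ℝ (Fin d) × EuclideanSpace ℝ (Fin d)), IsCoupling₃ (measOfDensity ρ) π →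
          ∫⁻ p, tripleCost s p ∂π₀ ≤ ∫⁻ p, tripleCost s p ∂π) ∧
        (∀ T₂ T₃ : EuclideanSpace ℝ (Fin d) → EuclideanSpace ℝ (Fin d), Measurable T₂ → Measurable T₃ →
          (measOfDensity ρ).map T₂ = measOfDensity ρ → (measOfDensity ρ).map T₃ = measOfDensity ρ →
          ∫⁻ p, tripleCost s p ∂π₀ < ∫⁻ x, tripleCost s (x, T₂ x, T₃ x) ∂(measOfDensity ρ)) ∧
        (∀ ε : ℝ≥0∞, 0 < ε → ∃ T₂ T₃ : EuclideanSpace ℝ (Fin d) → EuclideanSpace ℝ (Fin d), Measurable T₂ ∧ Measurable T₃ ∧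
          (measOfDensity ρ).map T₂ = measOfDensity ρ ∧ (measOfDensity ρ).map T₃ = measOfDensity ρ ∧
          ∫⁻ x, tripleCost s (x, T₂ x, T₃ x) ∂(measOfDensity ρ) < ∫⁻ p, tripleCost s p ∂π₀ + ε) := by
  refine Crest.Agent.R130.final_main hs
    (e := fun k => EuclideanSpace.single (if k then ⟨1, by omega⟩ else ⟨0, by omega⟩) (1 : ℝ))
    (fun k => by simp) ?_
  simp [EuclideanSpace.inner_single_left]

end Crest.Agent.S0175
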