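import Crest.Statements.S0209
import Crest.Agent.R149.Final

set_option autoImplicit false
open Crest Crest.ProbabilityR

namespace Crest.Agent.S0209

/-- There is a bounded continuous stable radial pair potential in three-space (energy of `N` particles `≥ -B N`) with `φ(r)` at most `C r^(-3-1/32)` in size for `r ≥ 1`, an open density interval centred at `5p/3`, `p > 0` the unit-separation packing density (`packingNumber L / L^3 → p`), and one `β_c ∈ [7/8, 9/8]` such that at each `ρ` in it the free energy per volume `-lim_L log Z_{[0,L]^3, ⌊ρL^3⌋}(β)/(β L^3)` exists for `β > 0`, with one-sided `β`-derivatives at `β_c`, left above right. -/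
theorem result :
    ∃ φ : ℝ → ℝ, Continuous φ ∧ (∃ M : ℝ, ∀ r : ℝ, |φ r| ≤ M) ∧
      (∃ B : ℝ, ∀ (N : ℕ) (x : Fin N → Crest.ProbabilityR.Continuum.Pt), -B * N ≤ Crest.ProbabilityR.Continuum.energy φ x) ∧
      (∃ C : ℝ, ∀ r : ℝ, 1 ≤ r → |φ r| ≤ C * r ^ (-(3 + 1 / 32 : ℝ))) ∧
      ∃ p η βc : ℝ, 0 < p ∧
        Filter.Tendsto (fun L : ℝ => (Crest.ProbabilityR.Continuum.packingNumber L : ℝ) / L ^ 3)
          Filter.atTop (nhds p) ∧
        0 < η ∧ η ≤ 5 * p / 3 ∧ 7 / 8 ≤ βc ∧ βc ≤ 9 / 8 ∧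
        ∃ f : ℝ → ℝ → ℝ,
          (∀ ρ : ℝ, 5 * p / 3 - η < ρ → ρ < 5 * p / 3 + η → ∀ β : ℝ, 0 < β →
            Filter.Tendsto (fun L : ℝ => -(1 / (β * L ^ 3)) *
                Real.log (Crest.ProbabilityR.Continuum.partitionFn φ L ⌊ρ * L ^ 3⌋₊ β))
              Filter.atTop (nhds (f β ρ))) ∧
          (∀ ρ : ℝ, 5 * p / 3 - η < ρ → ρ < 5 * p / 3 + η → ∃ Dl Dr : ℝ,
            HasDerivWithinAt (fun β => f β ρ) Dl (Set.Iio βc) βc ∧
            HasDerivWithinAt (fun β => f β ρ) Dr (Set.Ioi βc) βc ∧ Dr < Dl) := by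
  obtain ⟨φ, A, y, ⟨hc, K, hK⟩, hA, hy, hfar, hG, βc, hb0, hb1, hmain⟩ :=
    R149.exists_model (fun φ => Continuous φ ∧ ∃ K, ∀ r, 0 ≤ φ r ∧ φ r ≤ K)
      fun K δ η θ hK hδ hδ1 hθ hη => ⟨_, ⟨R149.continuous_core0 K δ η θ, K,
        fun r => ⟨R149.core0_nonneg hK _ _ _ _, R149.core0_le hK _ _ _ _⟩⟩,
        R149.core_core0 hK hδ hδ1 hθ hη⟩
  have hT0 := (R149.tail_Tt hA hy 0).dec.nonneg
  have hT1 := R149.Tt_le hA hy
  have hpk := R149.one_le_pk
  have hM : ∀ r, |(φ - R149.Tt A y 0) r| ≤ K + A * 16 := fun r => by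
    have := hK r
    have := hT0 r
    have := hT1 r
    rw [Pi.sub_apply, abs_le]
    constructor <;> linarith
  refine ⟨φ - R149.Tt A y 0, hc.sub (R149.continuous_Tt hA hy), ⟨_, hM⟩, hG.energy_stab, ?_,
    R149.pk, R149.pk / 20, βc, by linarith, R149.tendsto_pk, by linarith, by linarith, hb0, hb1,
    fun β ρ => R149.G (β • (φ - R149.Tt A y 0)) ρ / β,
    fun ρ h1 _ β hβ => R149.tendsto_free hG (by linarith) hβ, hmain⟩
  obtain ⟨C, hC⟩ := R149.Tt_decay hA hy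
  have hM0 : 0 ≤ K + A * 16 := (abs_nonneg _).trans (hM 0)
  refine ⟨max C ((K + A * 16) * 2 ^ (3 + 1 / 32 : ℝ)), fun r hr => ?_⟩
  have hr0 : 0 < r := by linarith
  have hp : 0 < r ^ (-(3 + 1 / 32 : ℝ)) := Real.rpow_pos_of_pos hr0 _
  rcases le_total 2 r with h2 | h2
  · rw [Pi.sub_apply, hfar r h2, zero_sub, abs_neg, abs_of_nonneg (hT0 r)]
    exact (hC r hr0).trans (mul_le_mul_of_nonneg_right (le_max_left _ _) hp.le)
  · refine (hM r).trans (le_trans ?_ (mul_le_mul_of_nonneg_right (le_max_right _ _) hp.le))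
    rw [mul_assoc]
    refine le_mul_of_one_le_right hM0 ?_
    rw [Real.rpow_neg hr0.le, ← div_eq_mul_inv, one_le_div (Real.rpow_pos_of_pos hr0 _)]
    exact Real.rpow_le_rpow hr0.le h2 (by norm_num)

end Crest.Agent.S0209
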