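import Crest.Statements.S0210
import Crest.Agent.R149.Final

set_option autoImplicit false
open Crest Crest.ProbabilityR

namespace Crest.Agent.S0210

/-- There is a measurable radial pair potential in three-space, finite and locally bounded at positive distances, tending to `+∞` at `0`, below `-a < 0` on an interval, with `r² φ(r)` integrable at large `r`, `r³ φ(r) → 0`, and stable on configurations of distinct points, whose canonical free energy per volume `-lim_L log Z_{[0,L]^3, ⌊ρL^3⌋}(β)/(β L^3)` exists for all `β, ρ > 0` and has, on some open density interval, at one `β_c ∈ (1/2, 3/2)` a left `β`-derivative strictly above the right. -/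
theorem result :
    ∃ φ : ℝ → ℝ, Measurable φ ∧
      (∀ a b : ℝ, 0 < a → a ≤ b → ∃ M : ℝ, ∀ r : ℝ, a ≤ r → r ≤ b → |φ r| ≤ M) ∧
      Filter.Tendsto φ (nhdsWithin 0 (Set.Ioi 0)) Filter.atTop ∧
      (∃ r₁ r₂ a : ℝ, 0 < r₁ ∧ r₁ < r₂ ∧ 0 < a ∧ ∀ r : ℝ, r₁ ≤ r → r ≤ r₂ → φ r ≤ -a) ∧
      (∃ R : ℝ, 0 < R ∧ MeasureTheory.IntegrableOn (fun r : ℝ => r ^ 2 * |φ r|) (Set.Ioi R)) ∧
      Filter.Tendsto (fun r : ℝ => r ^ 3 * φ r) Filter.atTop (nhds 0) ∧
      (∃ B : ℝ, ∀ (N : ℕ) (x : Fin N → Crest.ProbabilityR.Continuum.Pt), Function.Injective x →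
        -B * N ≤ Crest.ProbabilityR.Continuum.energy φ x) ∧
      ∃ f : ℝ → ℝ → ℝ,
        (∀ ρ : ℝ, 0 < ρ → ∀ β : ℝ, 0 < β →
          Filter.Tendsto (fun L : ℝ => -(1 / (β * L ^ 3)) *
              Real.log (Crest.ProbabilityR.Continuum.partitionFn φ L ⌊ρ * L ^ 3⌋₊ β))
            Filter.atTop (nhds (f β ρ))) ∧
        ∃ ρ₁ ρ₂ βc : ℝ, 0 ≤ ρ₁ ∧ ρ₁ < ρ₂ ∧ 1 / 2 < βc ∧ βc < 3 / 2 ∧
          ∀ ρ : ℝ, ρ₁ < ρ → ρ < ρ₂ → ∃ Dl Dr : ℝ,
            HasDerivWithinAt (fun β => f β ρ) Dl (Set.Iio βc) βc ∧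
            HasDerivWithinAt (fun β => f β ρ) Dr (Set.Ioi βc) βc ∧ Dr < Dl := by
  obtain ⟨φ, A, y, ⟨K, d, hd, φ0, hK, hφ⟩, hA, hy, hfar, hG, βc, hb0, hb1, hmain⟩ :=
    R149.exists_model (fun φ => ∃ K d : ℝ, 0 ≤ d ∧ ∃ φ0 : ℝ → ℝ, (∀ r, 0 ≤ φ0 r ∧ φ0 r ≤ K) ∧
        ∀ r, φ r = φ0 r + max 0 (1 / r - d))
      fun K δ η θ hK hδ hδ1 hθ hη => ⟨_, ⟨K, 2 / δ, by positivity, R149.core0 K δ η θ,
        fun r => ⟨R149.core0_nonneg hK _ _ _ _, R149.core0_le hK _ _ _ _⟩, fun _ => rfl⟩,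
        R149.core_core1 hK hδ hδ1 hθ hη⟩
  have hT0 := (R149.tail_Tt hA hy 0).dec.nonneg
  have hT1 := R149.Tt_le hA hy
  have hpk := R149.one_le_pk
  obtain ⟨C, hC⟩ := R149.Tt_decay hA hy
  have habs : ∀ r, 2 ≤ r → |(φ - R149.Tt A y 0) r| ≤ C * r ^ (-(3 + 1 / 32 : ℝ)) := fun r hr => by
    rw [Pi.sub_apply, hfar r hr, zero_sub, abs_neg, abs_of_nonneg (hT0 r)]
    exact hC r (by linarith)
  obtain ⟨B, hB⟩ := hG.energy_stab
  refine ⟨φ - R149.Tt A y 0, hG.meas, fun a b ha _ => ⟨K + 1 / a + A * 16, fun r hr _ => ?_⟩, ?_,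
    ⟨2, 3, R149.Tt A y 0 3, by norm_num, by norm_num, R149.Tt_pos hA hy, fun r h1 h2 => ?_⟩,
    ⟨2, by norm_num, ?_⟩, ?_, ⟨B, fun N x _ => hB N x⟩,
    fun β ρ => R149.G (β • (φ - R149.Tt A y 0)) ρ / β,
    fun ρ h1 β hβ => R149.tendsto_free hG h1.le hβ,
    5 * R149.pk / 3 - R149.pk / 20, 5 * R149.pk / 3 + R149.pk / 20, βc, by linarith, by linarith,
    by linarith, by linarith, hmain⟩
  · have a1 := hK r
    have a2 := hT0 r
    have a3 := hT1 r
    have a4 : 1 / r ≤ 1 / a := one_div_le_one_div_of_le ha hr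
    have a5 : 0 < 1 / a := by positivity
    have a6 : max 0 (1 / r - d) ≤ 1 / a := max_le a5.le (by linarith)
    have a7 := le_max_left 0 (1 / r - d)
    rw [Pi.sub_apply, hφ, abs_le]
    constructor <;> linarith
  · refine Filter.tendsto_atTop_mono (f := fun r : ℝ => r⁻¹ + (-d - A * 16)) (fun r => ?_)
      (Filter.tendsto_atTop_add_const_right _ _ tendsto_inv_nhdsGT_zero)
    have a1 := hK r
    have a3 := hT1 r
    have a7 := le_max_right 0 (1 / r - d)
    rw [Pi.sub_apply, hφ, ← one_div]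
    linarith
  · rw [Pi.sub_apply, hfar r h1, zero_sub, neg_le_neg_iff]
    exact (R149.tail_Tt hA hy 0).dec.anti r 3 (by linarith) h2
  · refine MeasureTheory.Integrable.mono'
      ((integrableOn_Ioi_rpow_of_lt (a := -(1 + 1 / 32 : ℝ)) (by norm_num) two_pos).const_mul C)
      ((measurable_id.pow_const 2).mul hG.meas.abs).aestronglyMeasurable ?_
    refine (MeasureTheory.ae_restrict_iff' measurableSet_Ioi).mpr (Filter.Eventually.of_forall
      fun r hr => ?_)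
    have hr2 : 2 < r := hr
    have hr0 : 0 < r := by linarith
    rw [Real.norm_eq_abs, abs_of_nonneg (by positivity)]
    refine (mul_le_mul_of_nonneg_left (habs r hr2.le) (by positivity)).trans (le_of_eq ?_)
    rw [mul_left_comm, ← Real.rpow_natCast, ← Real.rpow_add hr0]
    norm_num
  · have h0 := (tendsto_rpow_neg_atTop (y := 1 / 32) (by norm_num)).const_mul C
    rw [mul_zero] at h0
    refine squeeze_zero_norm' ?_ h0
    filter_upwards [Filter.eventually_ge_atTop 2] with r hr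
    have hr0 : 0 < r := by linarith
    rw [Real.norm_eq_abs, abs_mul, abs_of_nonneg (by positivity)]
    refine (mul_le_mul_of_nonneg_left (habs r hr) (by positivity)).trans (le_of_eq ?_)
    rw [mul_left_comm, ← Real.rpow_natCast, ← Real.rpow_add hr0]
    norm_num

end Crest.Agent.S0210
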