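import Crest.Statements.S0241
import Crest.Agent.R160.Main

set_option autoImplicit false
universe u
open Crest Crest.ProbabilityR

namespace Crest.Agent.S0241

/-- Let `d ≥ 3`, `β ≥ 0`, `tanh β ≤ (d-1)^(-1/2)`. On every connected acyclic graph with all degrees `d` (the infinite `d`-regular tree) some measurable map from `[0,1]^V` to spin configurations commutes with every automorphism on every input and, fed independent uniform labels, outputs the free zero-field Ising state: each spin pattern on a finite connected vertex set `S` has probability `1/2` times the product over edges inside `S` of `(1 ± tanh β)/2`, with `+` for agreeing endpoints. -/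
theorem result (d : ℕ) (hd : 3 ≤ d) (β : ℝ)
    (hβ : 0 ≤ β) (hθ : Real.tanh β ≤ ((d : ℝ) - 1) ^ (-(1 / 2 : ℝ))) (V : Type u)
    (G : SimpleGraph V) [G.LocallyFinite] (hT : G.IsTree) (hreg : G.IsRegularOfDegree d) :
    ∃ Φ : (V → unitInterval) → (V → Bool),
      Measurable Φ ∧
      (∀ (g : G ≃g G) (x : V → unitInterval), Φ (x ∘ ⇑g) = Φ x ∘ ⇑g) ∧
      ∀ (S : Finset V) (η : V → Bool), (G.induce (S : Set V)).Connected →
        (Crest.ProbabilityR.Labels.labelMeasure V).map Φ {σ | ∀ v ∈ S, σ v = η v} =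
          ENNReal.ofReal (Crest.ProbabilityR.TreeIsing.isingWeight G (Real.tanh β) S η) := by
  obtain ⟨b, rfl⟩ : ∃ b, d = b + 1 := ⟨d - 1, by omega⟩
  refine Crest.Agent.R160.main hT hreg (by omega) hβ ?_
  have hb : (0 : ℝ) < b := by exact_mod_cast (by omega : 0 < b)
  have h1 := pow_le_pow_left₀ (Crest.Agent.R160.tanh_nonneg' hβ) hθ 2
  rw [Nat.cast_add_one, add_sub_cancel_right, ← Real.rpow_natCast (_ ^ _), ← Real.rpow_mul hb.le,
    show -(1 / 2 : ℝ) * (2 : ℕ) = -1 by norm_num, Real.rpow_neg_one] at h1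
  calc (b : ℝ) * Real.tanh β ^ 2 ≤ b * (b : ℝ)⁻¹ := mul_le_mul_of_nonneg_left h1 hb.le
    _ = 1 := mul_inv_cancel₀ hb.ne'

end Crest.Agent.S0241
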