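import Crest.Statements.S0254
import Crest.Agent.R168.Noise

set_option autoImplicit false
open Crest Crest.ProbabilityR

namespace Crest.Agent.S0254

/-- One rule from (graph on `ℕ`, labels in `[0,1]^ℕ`) to edge sets, jointly measurable in (adjacency table, labels) and commuting on every input with every permutation of `ℕ` acting on graph, labels and pairs, gives i.i.d. uniform labels the free uniform spanning forest's law on every connected locally finite graph: along every exhaustion by finite connected induced pieces, for finite edge sets `F` the chance that the piece's uniform spanning tree contains `F` tends to that for the output. -/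
theorem result :
    ∃ Φ : SimpleGraph ℕ → (ℕ → unitInterval) → (Sym2 ℕ → Bool),
      Measurable (fun p : (ℕ → ℕ → Bool) × (ℕ → unitInterval) =>
          Φ (Crest.ProbabilityR.GraphTables.graphOfTable p.1) p.2) ∧
      (∀ (σ : Equiv.Perm ℕ) (G : SimpleGraph ℕ) (x : ℕ → unitInterval),
          Φ (G.comap ⇑σ) (x ∘ ⇑σ) = Φ G x ∘ Sym2.map ⇑σ) ∧
      ∀ G : SimpleGraph ℕ, G.Connected → (∀ v : ℕ, (G.neighborSet v).Finite) →
        ∀ S : ℕ → Finset ℕ, Monotone S → (∀ v : ℕ, ∃ n, v ∈ S n) →
          (∀ n, (G.induce (S n : Set ℕ)).Connected) →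
          ∀ F : Finset (Sym2 ℕ), (↑F : Set (Sym2 ℕ)) ⊆ G.edgeSet →
            Filter.Tendsto (fun n => Crest.ProbabilityR.SpanningTrees.ustContains G (S n) F) Filter.atTop
              (nhds (((Crest.ProbabilityR.Labels.labelMeasure ℕ).map (Φ G) {ω | ∀ e ∈ F, ω e = true}).toReal)) := by
  classical
  obtain ⟨ψ, hψ, hψ'⟩ := MeasureTheory.Measure.exists_measurable_map_eq (R168.gam ℕ)
  have hm : Measurable (fun (x : ℕ → unitInterval) (v : ℕ) => ψ (x v)) := by fun_prop
  refine ⟨fun G x => R168.Phi (R168.fusf G) (R168.gwin G) R168.Lsr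
    (R168.noise G (fun v => ψ (x v))), ?_, fun σ G x => ?_, fun G hG hloc S hmono hex hconn F hF => ?_⟩
  · have hG : ∀ u v, Measurable fun θ : ℕ → ℕ → Bool =>
        (Crest.ProbabilityR.GraphTables.graphOfTable θ).Adj u v := by
      intro u v
      simp only [Crest.ProbabilityR.GraphTables.graphOfTable, SimpleGraph.fromRel_adj]
      have h : ∀ a b : ℕ, Measurable fun θ : ℕ → ℕ → Bool => θ a b = true := fun a b =>
        measurableSet_setOfPred.1 (measurableSet_eq_fun
          ((measurable_pi_apply b).comp (measurable_pi_apply a)) measurable_const)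
      exact measurable_const.and ((h u v).or (h v u))
    let κ : ProbabilityTheory.Kernel (ℕ → ℕ → Bool) (Sym2 ℕ → Bool) :=
      ⟨fun θ => R168.fusf (Crest.ProbabilityR.GraphTables.graphOfTable θ), R168.measurable_fusf hG⟩
    have : ProbabilityTheory.IsMarkovKernel κ :=
      ⟨fun θ => inferInstanceAs (MeasureTheory.IsProbabilityMeasure (R168.fusf _))⟩
    have h1 := R168.measurable_Phi_param κ
      (W := fun θ => R168.gwin (Crest.ProbabilityR.GraphTables.graphOfTable θ))
      (R168.measurableSet_mem_gwin hG) R168.Lsr
    have h2 : Measurable fun p : (ℕ → ℕ → Bool) × (ℕ → unitInterval) =>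
        R168.noise (Crest.ProbabilityR.GraphTables.graphOfTable p.1) (fun v => ψ (p.2 v)) :=
      R168.measurable_noise (G := fun p : (ℕ → ℕ → Bool) × (ℕ → unitInterval) =>
        Crest.ProbabilityR.GraphTables.graphOfTable p.1)
        (fun u v => (hG u v).comp measurable_fst) (hm.comp measurable_snd)
    exact h1.comp (measurable_fst.prodMk h2)
  · funext e
    have h1 := R168.Phi_map (R168.sm σ) (R168.fusf_comap σ G) (W := R168.gwin G)
      (W' := R168.gwin (G.comap σ)) (R168.gwin_comap σ G) R168.Lsr
      (R168.noise G (fun v => ψ (x v))) e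
    rw [← R168.noise_comap] at h1
    exact h1.symm
  · let ι : G.edgeSet ↪ Sym2 ℕ := Function.Embedding.subtype _
    let ν' : MeasureTheory.Measure (G.edgeSet → Bool) := (R168.fusf G).map (fun ω => ω ∘ ι)
    have : MeasureTheory.IsProbabilityMeasure ν' :=
      MeasureTheory.Measure.isProbabilityMeasure_map (R168.measurable_comp_emb ι).aemeasurable
    let W' : ℕ → G.edgeSet → Finset G.edgeSet := fun N e =>
      (R168.gwin G N e).subtype (· ∈ G.edgeSet)
    have hW : ∀ N e, R168.gwin G N (ι e) = (W' N e).map ι := fun N e =>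
      (Finset.subtype_map_of_mem fun f hf => ((R168.mem_gwin G N _ f).1 hf).2.1).symm
    have hex' : R168.Exhausts W' := by
      intro e T
      have h1 : ∀ v, ∀ᶠ N in Filter.atTop, v ∈ R168.ball G {u | u ∈ (e : Sym2 ℕ)} N := by
        intro v
        obtain ⟨n, hn⟩ := (R168.reachable_iff_ball G {u | u ∈ (e : Sym2 ℕ)} v).1
          ⟨_, Sym2.out_fst_mem _, hG.preconnected _ _⟩
        exact (Filter.eventually_ge_atTop n).mono fun m hm => R168.ball_mono G _ hm hn
      have h2 : ∀ᶠ N in Filter.atTop, ∀ f ∈ T, ∀ v ∈ (f : Sym2 ℕ).toFinset,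
          v ∈ R168.ball G {u | u ∈ (e : Sym2 ℕ)} N :=
        (Filter.eventually_all_finset T).2 fun f _ =>
          (Filter.eventually_all_finset _).2 fun v _ => h1 v
      obtain ⟨N, hN⟩ := h2.exists
      refine ⟨N, fun f hf => ?_⟩
      simp only [W', Finset.mem_subtype, R168.mem_gwin]
      exact ⟨R168.nearSet_finite hloc N _, f.2, fun v hv => hN f hf v (by simpa using hv)⟩
    have hlip : R168.IsLip ν' R168.Lsr := R168.IsLip.map ι rfl (R168.isLip_fusf hG)
    have hlaw := R168.map_Phi hlip R168.Lsr_nonneg hex'
    have hmn : Measurable (fun w : ℕ → ℕ → ℝ => R168.noise G w) :=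
      R168.measurable_noise (G := fun _ => G) (fun _ _ => measurable_const) measurable_id
    have hmn' : Measurable (fun (w : ℕ → ℕ → ℝ) (e : G.edgeSet) => R168.noise G w e) :=
      (R168.measurable_comp_emb ι).comp hmn
    have hlab : (Crest.ProbabilityR.Labels.labelMeasure ℕ).map
        (fun (x : ℕ → unitInterval) (v : ℕ) => ψ (x v)) =
        MeasureTheory.Measure.infinitePi (fun _ : ℕ => R168.gam ℕ) := by
      rw [Crest.ProbabilityR.Labels.labelMeasure,
        MeasureTheory.Measure.infinitePi_map_pi _ (f := fun _ => ψ) (fun _ => hψ)]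
      simp only [hψ']
    have hF' : F = (F.subtype (· ∈ G.edgeSet)).map ι :=
      (Finset.subtype_map_of_mem fun f hf => hF hf).symm
    have key : (Crest.ProbabilityR.Labels.labelMeasure ℕ).map
        (fun x => R168.Phi (R168.fusf G) (R168.gwin G) R168.Lsr
          (R168.noise G (fun v => ψ (x v)))) {ω | ∀ e ∈ F, ω e = true} = R168.qF G F := by
      have hmP : Measurable (fun x : ℕ → unitInterval => R168.Phi (R168.fusf G) (R168.gwin G)
          R168.Lsr (R168.noise G (fun v => ψ (x v)))) :=
        (R168.measurable_Phi _ _).comp (hmn.comp hm)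
      have h1 : ν' {ω | ∀ e ∈ F.subtype (· ∈ G.edgeSet), ω e = true} = R168.qF G F := by
        rw [← R168.fusf_up hG, MeasureTheory.Measure.map_apply (R168.measurable_comp_emb ι)
          (R168.measurableSet_up _)]
        congr 1
        conv_rhs => rw [hF']
        ext ω
        simp only [Set.mem_preimage, Set.mem_ofPred_eq, Finset.forall_mem_map,
          Function.comp_apply]
      rw [← h1, ← hlaw, ← R168.map_noise hloc, ← hlab,
        MeasureTheory.Measure.map_map hmn' hm,
        MeasureTheory.Measure.map_map (R168.measurable_Phi _ _) (hmn'.comp hm),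
        MeasureTheory.Measure.map_apply hmP (R168.measurableSet_up _),
        MeasureTheory.Measure.map_apply ((R168.measurable_Phi _ _).comp (hmn'.comp hm))
          (R168.measurableSet_up _)]
      congr 1
      conv_lhs => rw [hF']
      ext x
      simp only [Set.mem_preimage, Set.mem_ofPred_eq, Finset.forall_mem_map,
        Function.comp_apply]
      refine forall₂_congr fun e _ => ?_
      rw [R168.Phi_map ι rfl hW]
      rfl
    rw [key]
    have hne : R168.qF G F ≠ ⊤ := by
      rw [← R168.fusf_up hG]
      exact MeasureTheory.measure_ne_top _ _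
    have h1 := (ENNReal.tendsto_toReal hne).comp (R168.tendsto_ust G hmono hex hconn F)
    refine h1.congr fun n => ?_
    exact ENNReal.toReal_ofReal (R168.ustContains_nonneg _ _ _)

end Crest.Agent.S0254
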