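import Crest.Statements.S0255
import Crest.Agent.R168.Law
import Crest.Agent.R168.Natural
import Crest.Agent.R168.SR

set_option autoImplicit false
open Crest Crest.ProbabilityR

namespace Crest.Agent.S0255

/-- For a countable group `Γ` and a strongly Rayleigh probability law `ν` on binary configurations `Γ → Bool` that is invariant under every left shift `a ↦ (h ↦ a (g⁻¹ h))`, there is a measurable map from independent uniform labels indexed by `Γ` to configurations that commutes with every left shift and pushes the label law forward to `ν`. -/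
theorem result (Γ : Type*) [Group Γ]
    [Countable Γ] (ν : MeasureTheory.Measure (Γ → Bool)) [MeasureTheory.IsProbabilityMeasure ν]
    (hsr : Crest.ProbabilityR.StronglyRayleigh.IsStronglyRayleigh ν)
    (hinv : Crest.ProbabilityR.StronglyRayleigh.IsShiftInvariant ν) :
    ∃ Φ : (Γ → unitInterval) → (Γ → Bool), Measurable Φ ∧
      (∀ (g : Γ) (u : Γ → unitInterval),
        Φ (Crest.ProbabilityR.StronglyRayleigh.leftShift g u) =
          Crest.ProbabilityR.StronglyRayleigh.leftShift g (Φ u)) ∧
      (Crest.ProbabilityR.Labels.labelMeasure Γ).map Φ = ν := by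
  classical
  obtain ⟨ψ, hψ, hψ'⟩ := MeasureTheory.Measure.exists_measurable_map_eq R168.lap
  obtain ⟨F, hF⟩ := exists_surjective_nat (Finset Γ)
  let W : ℕ → Γ → Finset Γ := fun N x => (F N).map (Equiv.mulLeft x).toEmbedding
  have hW : R168.Exhausts W := by
    intro x S
    obtain ⟨N, hN⟩ := hF (S.map (Equiv.mulLeft x⁻¹).toEmbedding)
    refine ⟨N, fun y hy => ?_⟩
    simp only [W, hN, Finset.mem_map_equiv]
    simpa using hy
  have hm : Measurable (fun (u : Γ → unitInterval) (x : Γ) => ψ (u x)) := by fun_prop
  refine ⟨fun u => R168.Phi ν W R168.Lsr (fun x => ψ (u x)),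
    (R168.measurable_Phi W _).comp hm, fun g u => ?_, ?_⟩
  · funext h
    have hν : ν = ν.map (fun ω => ω ∘ (Equiv.mulLeft g⁻¹).toEmbedding) := by
      ext A hA
      rw [MeasureTheory.Measure.map_apply (R168.measurable_comp_emb _) hA]
      exact (hinv g A hA).symm
    have := R168.Phi_map (Equiv.mulLeft g⁻¹).toEmbedding hν (W := W) (W' := W) (fun N i => by
      simp only [W, Finset.map_map]
      congr 1
      ext y
      simp [mul_assoc]) R168.Lsr (fun x => ψ (u x)) h
    exact this.symm
  · have h1 : (Crest.ProbabilityR.Labels.labelMeasure Γ).map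
        (fun (u : Γ → unitInterval) (x : Γ) => ψ (u x)) = R168.gam Γ := by
      rw [Crest.ProbabilityR.Labels.labelMeasure,
        MeasureTheory.Measure.infinitePi_map_pi _ (f := fun _ => ψ) (fun _ => hψ)]
      simp only [hψ', R168.gam]
    have h2 := R168.map_Phi (R168.isLip_of_stronglyRayleigh hsr) R168.Lsr_nonneg hW
    rw [← h1, MeasureTheory.Measure.map_map (R168.measurable_Phi W _) hm] at h2
    exact h2

end Crest.Agent.S0255
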