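import Crest.Statements.S0259
import Crest.Agent.R171.Glue
import Crest.Agent.R171.Van
import Crest.Agent.R171.NZ
import Crest.Agent.R171.Ring

set_option autoImplicit false
open Crest.AlgebraR.Steinberg
open Crest Crest.AlgebraR

namespace Crest.Agent.S0259

/-- Integral Gersten injectivity fails in degree three: there is a two-dimensional regular local domain A of mixed characteristic (0, 5), ramified in the sense that 5 lies in the square of its maximal ideal, for which the map from K_3(A) to K_3 of its fraction field (realised as the map on third integral homology of Steinberg groups induced by the inclusion of A into its fraction field) is not injective. -/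
theorem result :
    ∃ (A : Type) (_ : CommRing A) (_ : IsDomain A) (_ : IsRegularLocalRing A),
      ringKrullDim A = 2 ∧ CharZero A ∧ (5 : A) ∈ IsLocalRing.maximalIdeal A ^ 2 ∧
        ¬ Function.Injective (H3map (algebraMap A (FractionRing A))).hom := by
  obtain ⟨A, i1, i2, i3, h1, h2, h3, D, hy, B, i4, ⟨E⟩⟩ := R171.exists_ring
  refine ⟨A, i1, i2, i3, h1, h2, h3, ?_⟩
  obtain ⟨c, m, hc, hm, hm0⟩ := R171.nonzero D E
  let φ := algebraMap A (FractionRing A)
  have hφ : (stMap φ : R171.SG ℕ A →* R171.SG ℕ (FractionRing A)) =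
      R171.mp (Function.Embedding.refl ℕ) φ := by
    refine R171.SG.hom_ext fun i j a hij => ?_
    refine Eq.trans ?_ (R171.mp_X _ φ i j a).symm
    refine (congrArg (stMap φ) (R171.X_of hij a)).trans ?_
    exact Eq.trans rfl (R171.X_of hij (φ a)).symm
  refine R171.glue (G := R171.SG ℕ A) (G' := R171.SG ℕ (FractionRing A)) (stMap φ) (trivialHom φ)
    rfl R171.cc_fin R171.perf_fin D.T_comm₁ D.T_comm₂ D.k_eq hc hm hm0 ?_
  have hyF : IsUnit (D.map φ).y :=
    isUnit_iff_ne_zero.2 ((map_ne_zero_iff _ (IsFractionRing.injective A _)).2 hy)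
  have hv := R171.vanish (D.map φ) hyF (R171.Glue.U_coc (G := R171.SG ℕ (FractionRing A)))
  rw [hφ]
  refine R171.IsZ.pull _ (R171.mp (Function.Embedding.refl (Fin 5)) φ)
    (ι₁' := R171.ι₁ _) (ι₂' := R171.ι₂ _) (fun a => ?_) (fun a => ?_) ?_
  · exact DFunLike.congr_fun (R171.SG.hom_ext
      (f := (R171.mp (Function.Embedding.refl ℕ) φ).comp (R171.ι₁ A))
      (g := (R171.ι₁ _).comp (R171.mp (Function.Embedding.refl (Fin 5)) φ))
      fun i j a _ => by simp [R171.ι₁]) a
  · exact DFunLike.congr_fun (R171.SG.hom_ext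
      (f := (R171.mp (Function.Embedding.refl ℕ) φ).comp (R171.ι₂ A))
      (g := (R171.ι₂ _).comp (R171.mp (Function.Embedding.refl (Fin 5)) φ))
      fun i j a _ => by simp [R171.ι₂]) a
  · convert hv using 1
    · simp [R171.Dat.T, R171.Dat.map]
    · simp [R171.Dat.k, R171.Dat.map]

end Crest.Agent.S0259
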