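import Crest.Statements.S0265
import Crest.Agent.R176.Main

set_option autoImplicit false
open Crest Crest.AlgebraR

namespace Crest.Agent.S0265

/-- There is a group that is infinite, finitely presented and residually finite, and in which every element has finite order equal to a power of `2`. -/
theorem result :
    ∃ (G : Type) (_ : Group G),
      Infinite G ∧ Group.IsFinitelyPresented G ∧ Group.ResiduallyFinite G ∧ IsPGroup 2 G := by
  exact Crest.Agent.R176.final265

end Crest.Agent.S0265
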