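import Crest.Statements.S0303
import Crest.Agent.R177.All

set_option autoImplicit false
open Crest Crest.AlgebraR

namespace Crest.Agent.S0303

/-- There is a group in which only the identity has finite order, which is word-hyperbolic (it has a finite generating set whose word metric satisfies the four-point condition for some constant), and which is not residually finite (some non-identity element lies in every normal subgroup of finite index). -/
theorem result :
    ∃ (G : Type) (_ : Group G),
      (∀ g : G, IsOfFinOrder g → g = 1) ∧ Crest.GroupTheory.IsHyperbolicGroup G ∧
        ¬ Group.ResiduallyFinite G := by
  exact Crest.Agent.R177.s0303_of Crest.Agent.R177.core2 Crest.Agent.R177.algStmt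
    Crest.Agent.R177.hypStmt

end Crest.Agent.S0303
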