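import Crest.Statements.S0327
import Crest.Agent.R211.Bases

set_option autoImplicit false
open MeasureTheory
open scoped ENNReal
open Crest Crest.GeometryTopology Crest.GeometryTopology.Convex

namespace Crest.Agent.S0327

/-- Let K ⊂ ℝ³ be a regular tetrahedron (convex hull of four points with equal pairwise distances ℓ > 0); areas are Lebesgue-normalised 2-dimensional Hausdorff measure, π_v y = y − ⟪y, v⟫ v. (1) Finitely many cylinders Bᵢ + ℝ uᵢ, ‖uᵢ‖ = 1, with parallelogram bases Bᵢ = cᵢ + [0,1]aᵢ + [0,1]bᵢ in uᵢ^⊥ cover K, ∑ᵢ area(Bᵢ) being below half of area(π_v K) by a positive margin for all unit v, and ∑ᵢ area(Bᵢ)/area(π_{uᵢ} K) < 1/2. (2) The same with bounded relatively open subsets of the uᵢ^⊥ as bases. -/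
theorem result
    (w : Fin 4 → EuclideanSpace ℝ (Fin 3)) (ℓ : ℝ) (hℓ : 0 < ℓ)
    (hw : ∀ i j, i ≠ j → dist (w i) (w j) = ℓ) :
    (∃ (k : ℕ) (u c a b : Fin k → EuclideanSpace ℝ (Fin 3)),
      (∀ i, ‖u i‖ = 1) ∧
      (∀ i, inner ℝ (c i) (u i) = 0 ∧ inner ℝ (a i) (u i) = 0 ∧ inner ℝ (b i) (u i) = 0) ∧
      convexHull ℝ (Set.range w) ⊆ ⋃ i, {x : EuclideanSpace ℝ (Fin 3) |
        ∃ s ∈ Set.Icc (0 : ℝ) 1, ∃ t ∈ Set.Icc (0 : ℝ) 1, ∃ τ : ℝ, x = c i + s • a i + t • b i + τ • u i} ∧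
      (∃ δ : ℝ, 0 < δ ∧ ∀ v : EuclideanSpace ℝ (Fin 3), ‖v‖ = 1 →
        (∑ i, (μHE[2] {x : EuclideanSpace ℝ (Fin 3) |
            ∃ s ∈ Set.Icc (0 : ℝ) 1, ∃ t ∈ Set.Icc (0 : ℝ) 1, x = c i + s • a i + t • b i}).toReal) + δ ≤
          (μHE[2] ((fun y => y - inner ℝ y v • v) '' convexHull ℝ (Set.range w))).toReal / 2) ∧
      ∑ i, (μHE[2] {x : EuclideanSpace ℝ (Fin 3) |
            ∃ s ∈ Set.Icc (0 : ℝ) 1, ∃ t ∈ Set.Icc (0 : ℝ) 1, x = c i + s • a i + t • b i}).toReal /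
          (μHE[2] ((fun y => y - inner ℝ y (u i) • u i) '' convexHull ℝ (Set.range w))).toReal < 1 / 2) ∧
    (∃ (k : ℕ) (u : Fin k → EuclideanSpace ℝ (Fin 3)) (B : Fin k → Set (EuclideanSpace ℝ (Fin 3))),
      (∀ i, ‖u i‖ = 1) ∧
      (∀ i, Bornology.IsBounded (B i) ∧ ∃ O : Set (EuclideanSpace ℝ (Fin 3)), IsOpen O ∧
        B i = O ∩ {x | inner ℝ x (u i) = 0}) ∧
      convexHull ℝ (Set.range w) ⊆
        ⋃ i, {x : EuclideanSpace ℝ (Fin 3) | ∃ y ∈ B i, ∃ τ : ℝ, x = y + τ • u i} ∧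
      (∃ δ : ℝ, 0 < δ ∧ ∀ v : EuclideanSpace ℝ (Fin 3), ‖v‖ = 1 →
        (∑ i, (μHE[2] (B i)).toReal) + δ ≤
          (μHE[2] ((fun y => y - inner ℝ y v • v) '' convexHull ℝ (Set.range w))).toReal / 2) ∧
      ∑ i, (μHE[2] (B i)).toReal /
          (μHE[2] ((fun y => y - inner ℝ y (u i) • u i) '' convexHull ℝ (Set.range w))).toReal < 1 / 2) := by
  have hs0 : 0 < Real.sqrt 2 := by positivity
  obtain ⟨M, hM⟩ : ∃ M : ℕ, 4000000 < M := ⟨_, Nat.lt_succ_self _⟩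
  obtain ⟨T, m, hK⟩ := R211.regular_tet_similar w ℓ hℓ hw
  have hcov := (R211.triCover_Ktet M hM _ le_rfl).similar T m (ℓ / 2)
  rw [← hK] at hcov
  have hl : 0 < ℓ / 2 := by positivity
  have hl2 : 0 < (ℓ / 2) ^ 2 * Real.sqrt 2 := by positivity
  have hmin : ∀ v : EuclideanSpace ℝ (Fin 3), ‖v‖ = 1 → (ℓ / 2) ^ 2 * Real.sqrt 2 ≤
      (μHE[2] ((fun y => y - inner ℝ y v • v) '' convexHull ℝ (Set.range w))).toReal := by
    intro v hv
    change _ ≤ (μHE[2] (R211.proj v '' convexHull ℝ (Set.range w))).toReal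
    rw [hK, R211.area_proj_similar _ T m hl, ENNReal.toReal_mul,
      ENNReal.toReal_ofReal (sq_nonneg _)]
    exact mul_le_mul_of_nonneg_left
      (R211.area_proj_Ktet_ge_toReal (by rw [T.symm.norm_map, hv])) (sq_nonneg _)
  constructor
  · obtain ⟨n, hn⟩ : ∃ n : ℕ, n = 10 ^ 9 := ⟨_, rfl⟩
    obtain ⟨k, u, c, a, b, h1, h2, h3, h4⟩ := hcov.parallelogram n (by rw [hn]; norm_num)
    have hn' : (n : ℝ) = 10 ^ 9 := by rw [hn]; norm_num
    have := R211.margin_lemma (fun i => R211.gramA (a i) (b i)) u h1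
      (fun i => R211.gramA_nonneg _ _) _ _ hl2 hmin (by rw [h4, hn']; linarith)
    refine ⟨k, u, c, a, b, h1, h2, h3, ?_⟩
    simp only [R211.area_parallelogram_toReal]
    exact this
  · obtain ⟨u, B, h1, h2, h3, h4⟩ := hcov.openBases
      (η := (ℓ / 2) ^ 2 * Real.sqrt 2 / 10 ^ 9) (by positivity)
    have := R211.margin_lemma (fun i => (μHE[2] (B i)).toReal) u h1
      (fun i => ENNReal.toReal_nonneg) _ _ hl2 hmin (by linarith)
    exact ⟨M, u, B, h1, h2, h3, this⟩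

end Crest.Agent.S0327
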