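import Crest.Statements.S0328
import Crest.Agent.R211.Sweep

set_option autoImplicit false
open MeasureTheory
open scoped ENNReal
open Crest Crest.GeometryTopology Crest.GeometryTopology.Convex

namespace Crest.Agent.S0328

/-- Unit e; a, b, p₀ ∈ e^⊥, a, b independent; α < β; L > 0; R ≥ 0, λ both continuous on [α, β]; w(t) ∈ e^⊥, w′ = λ(t)(a + tb). S = {p₀ + ρ(a + t b) + s(e + w t) : α ≤ t ≤ β, 0 ≤ ρ ≤ R t, ‖s‖ ≤ L}; A = κ ∫_α^β R²/(2√(1 + ‖w‖²)), κ = area spanned by a, b. For η > 0 a δ > 0 makes each partition t₀ < … < t_N of [α, β] of mesh ≤ δ, tags cᵢ, admit N cylinders (axes e + w(cᵢ), nondegenerate triangle bases) covering S, total area within η of A; same for S's pieces tᵢ ≤ t ≤ tᵢ₊₁ projected along these axes. -/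
theorem result
    (e a b p₀ : EuclideanSpace ℝ (Fin 3)) (he : ‖e‖ = 1)
    (ha : inner ℝ a e = 0) (hb : inner ℝ b e = 0) (hp₀ : inner ℝ p₀ e = 0)
    (hab : LinearIndependent ℝ ![a, b]) (L : ℝ) (hL : 0 < L) (α β : ℝ) (hαβ : α < β)
    (R : ℝ → ℝ) (hR : ContinuousOn R (Set.Icc α β)) (hR0 : ∀ t ∈ Set.Icc α β, 0 ≤ R t)
    (w : ℝ → EuclideanSpace ℝ (Fin 3)) (hw : ∀ t ∈ Set.Icc α β, inner ℝ (w t) e = 0)
    (lam : ℝ → ℝ) (hlam : ContinuousOn lam (Set.Icc α β))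
    (hw' : ∀ t ∈ Set.Icc α β, HasDerivWithinAt w (lam t • (a + t • b)) (Set.Icc α β) t)
    (η : ℝ) (hη : 0 < η) :
    ∃ δ : ℝ, 0 < δ ∧ ∀ (N : ℕ) (t : Fin (N + 1) → ℝ) (c : Fin N → ℝ),
      StrictMono t → t 0 = α → t (Fin.last N) = β →
      (∀ i : Fin N, t i.succ - t i.castSucc ≤ δ) →
      (∀ i : Fin N, t i.castSucc ≤ c i ∧ c i ≤ t i.succ) →
      (∃ (p q r : Fin N → EuclideanSpace ℝ (Fin 3)),
        (∀ i, inner ℝ (p i) (e + w (c i)) = 0 ∧ inner ℝ (q i) (e + w (c i)) = 0 ∧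
          inner ℝ (r i) (e + w (c i)) = 0) ∧
        (∀ i, AffineIndependent ℝ ![p i, q i, r i]) ∧
        {x : EuclideanSpace ℝ (Fin 3) | ∃ τ ∈ Set.Icc α β, ∃ ρ ∈ Set.Icc 0 (R τ), ∃ s : ℝ, abs s ≤ L ∧
            x = p₀ + ρ • (a + τ • b) + s • (e + w τ)} ⊆
          ⋃ i, {x : EuclideanSpace ℝ (Fin 3) | ∃ y ∈ convexHull ℝ {p i, q i, r i}, ∃ σ : ℝ,
            x = y + σ • (e + w (c i))} ∧
        abs ((∑ i, (μHE[2] (convexHull ℝ ({p i, q i, r i} : Set (EuclideanSpace ℝ (Fin 3))))).toReal) -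
            Real.sqrt (‖a‖ ^ 2 * ‖b‖ ^ 2 - inner ℝ a b ^ 2) *
              ∫ τ in α..β, R τ ^ 2 / (2 * Real.sqrt (1 + ‖w τ‖ ^ 2))) ≤ η) ∧
      abs ((∑ i : Fin N, (μHE[2] ((fun y => y - (inner ℝ y (e + w (c i)) / ‖e + w (c i)‖ ^ 2) • (e + w (c i))) ''
            {x : EuclideanSpace ℝ (Fin 3) | ∃ τ ∈ Set.Icc (t i.castSucc) (t i.succ), ∃ ρ ∈ Set.Icc 0 (R τ),
              ∃ s : ℝ, abs s ≤ L ∧ x = p₀ + ρ • (a + τ • b) + s • (e + w τ)})).toReal) -
          Real.sqrt (‖a‖ ^ 2 * ‖b‖ ^ 2 - inner ℝ a b ^ 2) *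
            ∫ τ in α..β, R τ ^ 2 / (2 * Real.sqrt (1 + ‖w τ‖ ^ 2))) ≤ η := by
  change ∃ δ : ℝ, 0 < δ ∧ ∀ (N : ℕ) (t : Fin (N + 1) → ℝ) (c : Fin N → ℝ),
      StrictMono t → t 0 = α → t (Fin.last N) = β →
      (∀ i : Fin N, t i.succ - t i.castSucc ≤ δ) →
      (∀ i : Fin N, t i.castSucc ≤ c i ∧ c i ≤ t i.succ) →
      (∃ (p q r : Fin N → EuclideanSpace ℝ (Fin 3)),
        (∀ i, inner ℝ (p i) (e + w (c i)) = 0 ∧ inner ℝ (q i) (e + w (c i)) = 0 ∧
          inner ℝ (r i) (e + w (c i)) = 0) ∧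
        (∀ i, AffineIndependent ℝ ![p i, q i, r i]) ∧
        R211.Sweep.piece e a b p₀ L R w α β ⊆
          ⋃ i, {x : EuclideanSpace ℝ (Fin 3) | ∃ y ∈ convexHull ℝ {p i, q i, r i}, ∃ σ : ℝ,
            x = y + σ • (e + w (c i))} ∧
        abs ((∑ i, (μHE[2] (convexHull ℝ ({p i, q i, r i} : Set (EuclideanSpace ℝ (Fin 3))))).toReal) -
            R211.gramA a b *
              ∫ τ in α..β, R τ ^ 2 / (2 * Real.sqrt (1 + ‖w τ‖ ^ 2))) ≤ η) ∧
      abs ((∑ i : Fin N, (μHE[2] (R211.Sweep.pr (e + w (c i)) ''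
            R211.Sweep.piece e a b p₀ L R w (t i.castSucc) (t i.succ))).toReal) -
          R211.gramA a b *
            ∫ τ in α..β, R τ ^ 2 / (2 * Real.sqrt (1 + ‖w τ‖ ^ 2))) ≤ η
  set f : ℝ → ℝ := fun τ => R τ ^ 2 / (2 * Real.sqrt (1 + ‖w τ‖ ^ 2)) with hf
  have hwc : ContinuousOn w (Set.Icc α β) := fun x hx => (hw' x hx).continuousWithinAt
  have hfc : ContinuousOn f (Set.Icc α β) := by
    apply (hR.pow 2).div
    · exact continuousOn_const.mul ((continuousOn_const.add (hwc.norm.pow 2)).sqrt)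
    · intro x _
      positivity
  obtain ⟨Λ0, hΛ0⟩ := isCompact_Icc.exists_bound_of_continuousOn hlam
  obtain ⟨Rm, hRm0⟩ := isCompact_Icc.exists_bound_of_continuousOn hR
  have hRm : ∀ x ∈ Set.Icc α β, R x ≤ Rm := fun x hx => (le_abs_self _).trans (hRm0 x hx)
  have hαI : α ∈ Set.Icc α β := ⟨le_rfl, hαβ.le⟩
  have hRm1 : 0 ≤ Rm := (hR0 α hαI).trans (hRm α hαI)
  set Λ := Λ0 + 1 with hΛdef
  have hΛpos : 0 < Λ := by
    have : 0 ≤ Λ0 := (norm_nonneg _).trans (hΛ0 α hαI)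
    linarith
  have hΛ : ∀ x ∈ Set.Icc α β, |lam x| ≤ Λ := fun x hx => (hΛ0 x hx).trans (by linarith)
  have hκ := R211.Sweep.gramA_pos hab
  set κ := R211.gramA a b
  have hβα : 0 < β - α := sub_pos.mpr hαβ
  set θ := min (1 / 2) (η / (κ * (2 * Rm + 2) * (β - α))) with hθdef
  have hθ : 0 < θ := lt_min (by norm_num) (by positivity)
  have hθ1 : θ ≤ 1 / 2 := min_le_left _ _
  have hθ2 : κ * (θ * (2 * Rm + 2)) * (β - α) ≤ η := by
    have h1 : θ ≤ η / (κ * (2 * Rm + 2) * (β - α)) := min_le_right _ _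
    rw [le_div_iff₀ (by positivity)] at h1
    linarith
  obtain ⟨δ1, hδ1, hδ1'⟩ := Metric.uniformContinuousOn_iff_le.mp
    (isCompact_Icc.uniformContinuousOn_of_continuous hR) θ hθ
  obtain ⟨δ2, hδ2, hδ2'⟩ := Metric.uniformContinuousOn_iff_le.mp
    (isCompact_Icc.uniformContinuousOn_of_continuous hfc) θ hθ
  refine ⟨min (min δ1 δ2) (θ / (4 * (L * Λ))), lt_min (lt_min hδ1 hδ2) (by positivity), ?_⟩
  intro N t c hmono ht0 htN hmesh hc
  have hlo : ∀ j, α ≤ t j := fun j => ht0 ▸ hmono.monotone (Fin.zero_le j)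
  have hhi : ∀ j, t j ≤ β := fun j => htN ▸ hmono.monotone (Fin.le_last j)
  have hlt : ∀ i : Fin N, t i.castSucc < t i.succ := fun i => hmono Fin.castSucc_lt_succ
  have hsub : ∀ i : Fin N, Set.Icc (t i.castSucc) (t i.succ) ⊆ Set.Icc α β :=
    fun i => Set.Icc_subset_Icc (hlo _) (hhi _)
  have hdist : ∀ i : Fin N, ∀ τ ∈ Set.Icc (t i.castSucc) (t i.succ),
      dist τ (c i) ≤ min δ1 δ2 := by
    intro i τ hτ
    have := (hmesh i).trans (min_le_left _ _)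
    rw [Real.dist_eq, abs_le]
    constructor <;> linarith [hτ.1, hτ.2, (hc i).1, (hc i).2]
  have hmain := fun i : Fin N => R211.Sweep.piece_main (p₀ := p₀) he ha hb hab hL hR0 hw hlam hw' hΛ
    hRm (hlo i.castSucc) (hhi i.succ) (hlt i) (hc i) hθ hθ1 (by
      have := (hmesh i).trans (min_le_right _ _)
      rw [le_div_iff₀ (by positivity)] at this
      linarith) (fun τ hτ => hδ1' τ (hsub i hτ) (c i) (hsub i (hc i))
        ((hdist i τ hτ).trans (min_le_left _ _)))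
  choose p q r h1 h2 h3 h4 h5 using hmain
  set F : ℝ → ℝ := fun x => κ * ∫ τ in α..x, f τ with hF
  have hint : ∀ x ∈ Set.Icc α β, ∀ y ∈ Set.Icc α β, IntervalIntegrable f volume x y :=
    fun x hx y hy => (hfc.mono (Set.uIcc_subset_Icc hx hy)).intervalIntegrable
  have hstep : ∀ i : Fin N, |κ * f (c i) * (t i.succ - t i.castSucc) -
      (F (t i.succ) - F (t i.castSucc))| ≤ κ * θ * (t i.succ - t i.castSucc) := by
    intro i
    have e1 : F (t i.succ) - F (t i.castSucc) = κ * ∫ τ in (t i.castSucc)..(t i.succ), f τ := by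
      simp only [hF]
      rw [← mul_sub, intervalIntegral.integral_interval_sub_left
        (hint α hαI _ ⟨hlo _, hhi _⟩) (hint α hαI _ ⟨hlo _, hhi _⟩)]
    have e2 : f (c i) * (t i.succ - t i.castSucc) - ∫ τ in (t i.castSucc)..(t i.succ), f τ =
        ∫ τ in (t i.castSucc)..(t i.succ), (f (c i) - f τ) := by
      rw [intervalIntegral.integral_sub (by simp) (hint _ ⟨hlo _, hhi _⟩ _ ⟨hlo _, hhi _⟩)]
      simp [mul_comm]
    have e3 := intervalIntegral.norm_integral_le_of_norm_le_const (a := t i.castSucc)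
      (b := t i.succ) (f := fun τ => f (c i) - f τ) (C := θ) (fun x hx => by
        have hx' : x ∈ Set.Icc (t i.castSucc) (t i.succ) := by
          rw [Set.uIoc_of_le (hlt i).le] at hx
          exact Set.Ioc_subset_Icc_self hx
        have := hδ2' x (hsub i hx') (c i) (hsub i (hc i)) ((hdist i x hx').trans (min_le_right _ _))
        rw [dist_comm] at this
        exact this)
    rw [abs_of_pos (sub_pos.mpr (hlt i)), Real.norm_eq_abs, ← e2] at e3
    rw [e1, mul_assoc, ← mul_sub, abs_mul, abs_of_pos hκ, mul_assoc]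
    exact mul_le_mul_of_nonneg_left e3 hκ.le
  have hfinal : ∀ v : Fin N → ℝ, (∀ i, |v i - κ * f (c i) * (t i.succ - t i.castSucc)| ≤
      κ * (θ * (2 * Rm + 1)) * (t i.succ - t i.castSucc)) →
      |∑ i, v i - κ * ∫ τ in α..β, f τ| ≤ η := by
    intro v hv
    have := R211.Sweep.riemann t F v (κ * (θ * (2 * Rm + 2))) (fun i => by
      have a1 := abs_le.mp (hv i)
      have a2 := abs_le.mp (hstep i)
      rw [abs_le]
      constructor <;> nlinarith [a1.1, a1.2, a2.1, a2.2])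
    rw [ht0, htN] at this
    simp only [hF, intervalIntegral.integral_same, mul_zero, sub_zero] at this
    exact this.trans hθ2
  refine ⟨⟨p, q, r, h1, h2, ?_, hfinal _ h4⟩, hfinal _ h5⟩
  rintro x ⟨τ, hτ, hx⟩
  obtain ⟨i, hi⟩ := R211.Sweep.exists_piece t (τ := τ) (by rw [ht0, htN]; exact hαβ)
    (by rw [ht0]; exact hτ.1) (by rw [htN]; exact hτ.2)
  refine Set.mem_iUnion.mpr ⟨i, R211.Sweep.pr (e + w (c i)) x, h3 i x ⟨τ, hi, hx⟩,
    inner ℝ x (e + w (c i)) / ‖e + w (c i)‖ ^ 2, ?_⟩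
  simp [R211.Sweep.pr]

end Crest.Agent.S0328
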