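import Crest.Statements.S0329
import Crest.Agent.S0326
import Crest.Agent.R211.SqOpen

set_option autoImplicit false
open MeasureTheory
open scoped ENNReal
open Crest Crest.GeometryTopology Crest.GeometryTopology.Convex

namespace Crest.Agent.S0329

/-- Let h, M > 0, D ⊂ ℝ² be compact with Lebesgue-null boundary, and V : ℝ² → ℝ² be C¹ on an open set containing D with tr DV(p) = 0 and −1/M² < det DV(p) < 0 for p ∈ D. For every ε > 0 the set of points (x, p₁ + x V₁(p), h (p₂ + x V₂(p))) ∈ ℝ³ with p ∈ D, −M ≤ x ≤ M is covered by finitely many cylinders Bᵢ + ℝ uᵢ, ‖uᵢ‖ = 1, with bases Bᵢ bounded relatively open subsets of the planes uᵢ^⊥ and ∑ᵢ area(Bᵢ) ≤ h ∫_D (1 + V₁² + h² V₂²)^(−1/2) + ε (areas: normalised 2-dimensional Hausdorff measure). -/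
theorem result
    (h M : ℝ) (hh : 0 < h) (hM : 0 < M) (D : Set (EuclideanSpace ℝ (Fin 2))) (hD : IsCompact D)
    (hbd : volume (frontier D) = 0)
    (V : EuclideanSpace ℝ (Fin 2) → EuclideanSpace ℝ (Fin 2)) (U : Set (EuclideanSpace ℝ (Fin 2)))
    (hU : IsOpen U) (hDU : D ⊆ U) (hV : ContDiffOn ℝ 1 V U)
    (htr : ∀ p ∈ D, LinearMap.trace ℝ _ (fderiv ℝ V p).toLinearMap = 0)
    (hdet : ∀ p ∈ D, -(M ^ 2)⁻¹ < LinearMap.det (fderiv ℝ V p).toLinearMap ∧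
      LinearMap.det (fderiv ℝ V p).toLinearMap < 0)
    (ε : ℝ) (hε : 0 < ε) :
    ∃ (k : ℕ) (u : Fin k → EuclideanSpace ℝ (Fin 3)) (B : Fin k → Set (EuclideanSpace ℝ (Fin 3))),
      (∀ i, ‖u i‖ = 1) ∧
      (∀ i, Bornology.IsBounded (B i) ∧ ∃ O : Set (EuclideanSpace ℝ (Fin 3)), IsOpen O ∧
        B i = O ∩ {x | inner ℝ x (u i) = 0}) ∧
      {z : EuclideanSpace ℝ (Fin 3) | ∃ p ∈ D, ∃ x : ℝ, abs x ≤ M ∧
          z = !₂[x, p 0 + x * V p 0, h * (p 1 + x * V p 1)]} ⊆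
        ⋃ i, {z : EuclideanSpace ℝ (Fin 3) | ∃ y ∈ B i, ∃ τ : ℝ, z = y + τ • u i} ∧
      ∑ i, (μHE[2] (B i)).toReal ≤
        h * (∫ p in D, 1 / Real.sqrt (1 + (V p 0) ^ 2 + h ^ 2 * (V p 1) ^ 2)) + ε := by
  set I := ∫ p in D, 1 / Real.sqrt (1 + (V p 0) ^ 2 + h ^ 2 * (V p 1) ^ 2) with hI
  have hI0 : 0 ≤ I := setIntegral_nonneg hD.measurableSet fun x _ => by positivity
  obtain ⟨k, c, a, b, g, h1, h2, h3⟩ := Crest.Agent.S0326.result D hD V U hU hDU hV M h hM hh htr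
    (fun p hp => ⟨(hdet p hp).1, (hdet p hp).2.le⟩) (ε / (2 * h)) (by positivity)
  rw [← hI] at h3
  set θ := min 1 (ε / (6 * (h * I + ε))) with hθ
  have hθ0 : 0 < θ := by positivity
  have hθ1 : θ ≤ 1 := min_le_left _ _
  have hθ2 : θ * (6 * (h * I + ε)) ≤ ε := (le_div_iff₀ (by positivity)).mp (min_le_right _ _)
  choose u B hu hB hO hcov hμ using fun i => Crest.Agent.R211C.open_base h hh (θ / 2)
    (by positivity) (c i) (a i) (b i) (g i) (h1 i).1 (h1 i).2.1 (h1 i).2.2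
  refine ⟨k, u, B, hu, fun i => ⟨hB i, hO i⟩, ?_, ?_⟩
  · rintro z ⟨p, hp, x, hx, rfl⟩
    obtain ⟨i, hi⟩ := Set.mem_iUnion.mp (h2 (a := (x, p + x • V p)) ⟨p, hp, hx, rfl⟩)
    refine Set.mem_iUnion.mpr ⟨i, ?_⟩
    have := hcov i x (p + x • V p) hi
    simpa using this
  · refine (Finset.sum_le_sum fun i _ => hμ i).trans ?_
    rw [← Finset.mul_sum]
    have e1 : h * (1 + 2 * (θ / 2)) ^ 2 *
        ∑ i, ‖a i‖ ^ 2 / Real.sqrt (1 + (g i 0) ^ 2 + h ^ 2 * (g i 1) ^ 2)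
        ≤ h * (1 + 2 * (θ / 2)) ^ 2 * (I + ε / (2 * h)) := by gcongr
    have e2 : h * (1 + 2 * (θ / 2)) ^ 2 * (I + ε / (2 * h)) = (1 + θ) ^ 2 * (h * I + ε / 2) := by
      field_simp
    have hhI : 0 ≤ h * I := by positivity
    have : θ ^ 2 ≤ θ := by nlinarith
    rw [e2] at e1
    nlinarith

end Crest.Agent.S0329
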