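import Crest.Statements.S0347
import Crest.Agent.R225.Main
-- import your own Crest.Agent.* helpers here

set_option autoImplicit false
open MeasureTheory
open Crest Crest.GeometryTopology Crest.GeometryTopology.Covering

namespace Crest.Agent.S0347

/-- There is an absolute constant `C` such that for every `n ≥ 2` and every convex body `K` in `ℝ^n` (compact, convex, nonempty interior) some full-rank lattice `Λ = g ℤ^n`, `g` an invertible real `n × n` matrix, satisfies `K + Λ = ℝ^n` and has covering density `vol(K)` divided by the absolute value of `det g` at most `C n log n`. -/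
theorem result :
    ∃ C : ℝ, ∀ (n : ℕ), 2 ≤ n → ∀ (K : Set (Fin n → ℝ)),
      IsCompact K → Convex ℝ K → (interior K).Nonempty →
        ∃ g : Matrix (Fin n) (Fin n) ℝ, g.det ≠ 0 ∧
          (∀ x : Fin n → ℝ, ∃ z : Fin n → ℤ, x - g.mulVec (fun i => (z i : ℝ)) ∈ K) ∧
          (volume K).toReal / |g.det| ≤ C * n * Real.log n := by
  obtain ⟨C, hC⟩ := Crest.Agent.R225.main
  exact ⟨C, fun n hn K h1 h2 h3 => hC n hn K ⟨h1, h2, h3⟩⟩

end Crest.Agent.S0347
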