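import Crest.Statements.S0392
import Crest.Agent.R254.Main

set_option autoImplicit false
open Crest.GeometryTopology
universe u v
open Crest Crest.GeometryTopology

namespace Crest.Agent.S0392

/-- There is a universal constant `Λ` such that every infinite-dimensional real Banach space contains a compact subset that is doubling with constant at most `Λ` and admits no map into any finite-dimensional real normed space that is Lipschitz with a Lipschitz inverse on its image, whatever the two Lipschitz constants. Doubling is measured with closed balls centred at points of the subset. -/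
theorem result :
    ∃ Λ : ℕ, ∀ (B : Type u) [NormedAddCommGroup B] [NormedSpace ℝ B] [CompleteSpace B],
      ¬ FiniteDimensional ℝ B →
      ∃ K : Set B, IsCompact K ∧ DoublingConstLE K Λ ∧
        ∀ (Y : Type v) [NormedAddCommGroup Y] [NormedSpace ℝ Y] [FiniteDimensional ℝ Y]
          (f : K → Y) (c C : NNReal), ¬ (LipschitzWith C f ∧ AntilipschitzWith c f) := by
  obtain ⟨P, hP⟩ := Crest.Agent.R254.exists_scheme
  refine ⟨3 * (401 * 401), fun B _ _ _ hB => ?_⟩
  obtain ⟨F⟩ := Crest.Agent.R254.exists_frame hB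
  refine ⟨closure (P.carrier F), ?_, ?_, ?_⟩
  · exact (Crest.Agent.R254.totallyBounded_of_weak (R := 8) (by norm_num)
      (fun p hp => P.norm_le_of_mem F hp) (P.weak_doubling F)).closure.isCompact_of_isClosed
      isClosed_closure
  · exact Crest.Agent.R254.doubling_closure_of_weak (P.weak_doubling F)
  · rintro Y _ _ _ f c C ⟨hC, hc⟩
    classical
    let T : Y ≃L[ℝ] EuclideanSpace ℝ (Fin (Module.finrank ℝ Y)) := toEuclidean
    let A : ℝ := ‖(T : Y →L[ℝ] EuclideanSpace ℝ (Fin (Module.finrank ℝ Y)))‖
    let A' : ℝ := ‖(T.symm : EuclideanSpace ℝ (Fin (Module.finrank ℝ Y)) →L[ℝ] Y)‖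
    have hA : 0 ≤ A := norm_nonneg _
    have hA' : 0 ≤ A' := norm_nonneg _
    let L : ℝ := c * A'
    have hL : 0 ≤ L := mul_nonneg c.2 hA'
    let Φ : B → EuclideanSpace ℝ (Fin (Module.finrank ℝ Y)) := fun p =>
      if h : p ∈ closure (P.carrier F) then L • T (f ⟨p, h⟩) else 0
    have hΦ : ∀ p (h : p ∈ closure (P.carrier F)) p' (h' : p' ∈ closure (P.carrier F)),
        ‖Φ p - Φ p'‖ = L * ‖T (f ⟨p, h⟩ - f ⟨p', h'⟩)‖ := by
      intro p h p' h'
      simp only [Φ, dif_pos h, dif_pos h']
      rw [← smul_sub, ← map_sub, norm_smul, Real.norm_of_nonneg hL]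
    refine Crest.Agent.R254.no_embedding P hP F Φ (L * (A * C) + 1)
      (by have : 0 ≤ L * (A * C) := by positivity
          linarith) ?_ ?_
    · intro p hp p' hp'
      rw [hΦ p (subset_closure hp) p' (subset_closure hp')]
      have h1 := (T : Y →L[ℝ] EuclideanSpace ℝ (Fin (Module.finrank ℝ Y))).le_opNorm
        (f ⟨p, subset_closure hp⟩ - f ⟨p', subset_closure hp'⟩)
      have h2 := hC.dist_le_mul ⟨p, subset_closure hp⟩ ⟨p', subset_closure hp'⟩
      rw [dist_eq_norm, Subtype.dist_eq, dist_eq_norm] at h2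
      have h3 : ‖T (f ⟨p, subset_closure hp⟩ - f ⟨p', subset_closure hp'⟩)‖ ≤
          A * (C * ‖p - p'‖) := h1.trans (mul_le_mul_of_nonneg_left h2 hA)
      have h4 := mul_le_mul_of_nonneg_left h3 hL
      nlinarith [norm_nonneg (p - p')]
    · intro p hp p' hp'
      rw [hΦ p (subset_closure hp) p' (subset_closure hp')]
      have h1 := (T.symm : EuclideanSpace ℝ (Fin (Module.finrank ℝ Y)) →L[ℝ] Y).le_opNorm
        (T (f ⟨p, subset_closure hp⟩ - f ⟨p', subset_closure hp'⟩))
      have h2 := hc.le_mul_dist ⟨p, subset_closure hp⟩ ⟨p', subset_closure hp'⟩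
      rw [Subtype.dist_eq, dist_eq_norm, dist_eq_norm] at h2
      simp only [ContinuousLinearEquiv.coe_coe, ContinuousLinearEquiv.symm_apply_apply] at h1
      have h3 := mul_le_mul_of_nonneg_left h1 c.2
      refine h2.trans (h3.trans (le_of_eq ?_))
      exact (mul_assoc _ _ _).symm

end Crest.Agent.S0392
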