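import Crest.Statements.S0396
import Crest.Agent.R258.Amp
import Crest.Agent.R258.Final

set_option autoImplicit false
open Crest.AlgGeometry.QuadricBundle
open Crest Crest.AlgGeometry Crest.AlgGeometry.QuadricBundle

namespace Crest.Agent.S0396

/-- There is a holomorphic vector bundle of rank two on `ℙ¹ × ℙ¹` (holomorphic transition matrices on the four standard affine charts) that is ample — for every `k`, all large symmetric powers `Sⁿ E ⊗ O(-k,-k)` are generated by global sections — yet has no smooth Hermitian metric with strictly Griffiths-positive Chern curvature, i.e. with `⟨Θ(ξ, ξ̄) v, v⟩ > 0` for all non-zero tangent `ξ` and fibre `v` (tested via the Levi form of the squared norm of holomorphic local sections through `v`). -/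
theorem result :
    ∃ g : Transition 2, IsHoloCocycle g ∧ IsAmple g ∧
      ∀ H : MetricData 2, IsHermitianMetric g H → ¬ IsGriffithsPositive H := by
  by_contra hne
  push Not at hne
  have k2 : ∀ᶠ N in R258.UU, ∃ A : (R258.V → R258.V → ℝ) × (R258.V → R258.V → ℝ) ×
      (Fin 2 → R258.V → R258.V → ℝ), (R258.Sys N A.1 A.2.1 A.2.2 ∧
        ∀ x y, ‖x‖ = 1 → ‖y‖ = 1 → A.1 x y ≤ 1 ∧ A.2.1 x y ≤ 1) ∧
      ∃ x y, ‖x‖ = 1 ∧ ‖y‖ = 1 ∧ (A.1 x y = 1 ∨ A.2.1 x y = 1) :=
    R258.ev_ne.mono fun N hN => by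
      obtain ⟨H, hH, hG⟩ := hne _ (R258.gE_cocycle N) (R258.gE_ample hN)
      obtain ⟨A1, A2, A3, h1, h2, h3⟩ := R258.exists_sys hH hG
      exact ⟨(A1, A2, A3), ⟨h1, h2⟩, h3⟩
  obtain ⟨A, hA⟩ := k2.choice
  exact R258.final (A1 := fun N => (A N).1) (A2 := fun N => (A N).2.1) (A3 := fun N => (A N).2.2)
    (hA.mono fun N h => h.1) (hA.mono fun N h => h.2)

end Crest.Agent.S0396
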