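import Crest.Statements.S0410
import Crest.Agent.R268.CDMain

set_option autoImplicit false
open Crest Crest.AlgGeometry

namespace Crest.Agent.S0410

/-- There is a polynomial F over ℂ in the variables x₀,…,x₃ such that, for every m, the ring A = ℂ[x₀,…,x₃₊ₘ] has a family of 3 + m derivations over ℂ, ending with the partial derivatives in x₄,…,x₃₊ₘ, such that: any two members commute; each member kills every element of A after some number of iterations; the family is linearly independent over A; the elements killed by all members form exactly the ℂ-subalgebra generated by F; and no such element is sent to x₀ by a ℂ-algebra automorphism of A. -/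
theorem result :
    ∃ F : MvPolynomial (Fin 4) ℂ, ∀ m : ℕ,
      ∃ D : Fin 3 ⊕ Fin m →
          Derivation ℂ (MvPolynomial (Fin (4 + m)) ℂ) (MvPolynomial (Fin (4 + m)) ℂ),
        (∀ i : Fin m, D (Sum.inr i) = MvPolynomial.pderiv (Fin.natAdd 4 i)) ∧
        (∀ a b : Fin 3 ⊕ Fin m, ∀ p : MvPolynomial (Fin (4 + m)) ℂ, D a (D b p) = D b (D a p)) ∧
        (∀ a : Fin 3 ⊕ Fin m, ∀ p : MvPolynomial (Fin (4 + m)) ℂ, ∃ k : ℕ, (D a)^[k] p = 0) ∧
        LinearIndependent (MvPolynomial (Fin (4 + m)) ℂ) D ∧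
        (∀ p : MvPolynomial (Fin (4 + m)) ℂ, (∀ a : Fin 3 ⊕ Fin m, D a p = 0) ↔
          p ∈ Algebra.adjoin ℂ {MvPolynomial.rename (Fin.castAdd m) F}) ∧
        ∀ g : MvPolynomial (Fin (4 + m)) ℂ, (∀ a : Fin 3 ⊕ Fin m, D a g = 0) →
          ¬ ∃ τ : MvPolynomial (Fin (4 + m)) ℂ ≃ₐ[ℂ] MvPolynomial (Fin (4 + m)) ℂ,
            τ g = MvPolynomial.X (Fin.castAdd m 0) := by
  exact ⟨R268.AS.F4, fun m => R268.CD.main m⟩

end Crest.Agent.S0410
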