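import Crest.Statements.S0423
import Crest.Agent.R280.Final

set_option autoImplicit false
open Crest Crest.AlgGeometry

namespace Crest.Agent.S0423

/-- For independent mean-one exponential random variables `X_1, …, X_N` (written as an integral over the positive orthant against the density `exp (-(x_1 + ⋯ + x_N))`), real coefficients `a_1, …, a_N` summing to zero, and the weight `g = truncExpWeight`, the quantity `(e^{4/3} / (4/3)) · E[g(4/3 + a_1 X_1 + ⋯ + a_N X_N)]` has supremum over all `N ≥ 1` and all such `a` exactly `(3/4) e^{4/3} − e/3`: it never exceeds this value, and comes within any `ε > 0` of it for some `N` and `a`. -/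
theorem result :
    (∀ (N : ℕ) (a : Fin N → ℝ), 1 ≤ N → ∑ i, a i = 0 →
      Real.exp (4 / 3) / (4 / 3) *
          ∫ x in Set.pi Set.univ (fun _ : Fin N => Set.Ioi (0 : ℝ)),
            Crest.AlgGeometry.truncExpWeight (4 / 3 + ∑ i, a i * x i) * Real.exp (-∑ i, x i)
        ≤ 3 / 4 * Real.exp (4 / 3) - Real.exp 1 / 3) ∧
    (∀ ε : ℝ, 0 < ε → ∃ (N : ℕ) (a : Fin N → ℝ), 1 ≤ N ∧ ∑ i, a i = 0 ∧
      3 / 4 * Real.exp (4 / 3) - Real.exp 1 / 3 - ε <
        Real.exp (4 / 3) / (4 / 3) *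
          ∫ x in Set.pi Set.univ (fun _ : Fin N => Set.Ioi (0 : ℝ)),
            Crest.AlgGeometry.truncExpWeight (4 / 3 + ∑ i, a i * x i) * Real.exp (-∑ i, x i)) := by
  have hE : Real.exp (4 / 3) * Real.exp (-(1 / 3 : ℝ)) = Real.exp 1 := by
    rw [← Real.exp_add]; norm_num
  have hpos := Real.exp_pos (4 / 3 : ℝ)
  constructor
  · intro N a _ ha
    rw [R280.integral_orthant N fun x => truncExpWeight (4 / 3 + ∑ i, a i * x i)]
    have h := R280.upper N a ha
    have h2 := mul_le_mul_of_nonneg_left h (show 0 ≤ Real.exp (4 / 3) / (4 / 3) by positivity)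
    refine h2.trans (le_of_eq ?_)
    rw [← hE]; ring
  · intro ε hε
    have hlim := ((Real.tendsto_one_add_div_pow_exp 1).inv₀ (Real.exp_pos 1).ne')
    have hlim2 : Filter.Tendsto (fun n : ℕ => Real.exp (4 / 3) / (4 / 3) *
        (1 - 4 / 9 * Real.exp (2 / 3) * ((1 + (1 : ℝ) / n) ^ n)⁻¹)) Filter.atTop
        (nhds (Real.exp (4 / 3) / (4 / 3) * (1 - 4 / 9 * Real.exp (2 / 3) * (Real.exp 1)⁻¹))) :=
      ((hlim.const_mul _).const_sub 1).const_mul _
    have hval : Real.exp (4 / 3) / (4 / 3) * (1 - 4 / 9 * Real.exp (2 / 3) * (Real.exp 1)⁻¹)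
        = 3 / 4 * Real.exp (4 / 3) - Real.exp 1 / 3 := by
      have : Real.exp (2 / 3) * (Real.exp 1)⁻¹ = Real.exp (-(1 / 3 : ℝ)) := by
        rw [← Real.exp_neg, ← Real.exp_add]; norm_num
      rw [mul_assoc (4 / 9 : ℝ), this, ← hE]; ring
    rw [hval] at hlim2
    have hev := hlim2.eventually
      (lt_mem_nhds (show 3 / 4 * Real.exp (4 / 3) - Real.exp 1 / 3 - ε
        < 3 / 4 * Real.exp (4 / 3) - Real.exp 1 / 3 by linarith))
    obtain ⟨n, hn, hn1⟩ := (hev.and (Filter.eventually_ge_atTop 1)).exists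
    have hn0 : (0 : ℝ) < n := by exact_mod_cast hn1
    refine ⟨n + 1, Fin.cons 2 fun _ => -(2 * (1 / (n : ℝ))), by omega, ?_, ?_⟩
    · rw [Fin.sum_univ_succ]
      simp only [Fin.cons_zero, Fin.cons_succ, Finset.sum_const, Finset.card_univ,
        Fintype.card_fin, nsmul_eq_mul]
      field_simp
      ring
    · rw [R280.integral_orthant (n + 1) fun x => truncExpWeight (4 / 3 +
        ∑ i, (Fin.cons 2 fun _ => -(2 * (1 / (n : ℝ))) : Fin (n + 1) → ℝ) i * x i)]
      have h := R280.lower (1 / (n : ℝ)) (by positivity) n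
      have h2 := mul_le_mul_of_nonneg_left h (show 0 ≤ Real.exp (4 / 3) / (4 / 3) by positivity)
      refine lt_of_lt_of_le (lt_of_lt_of_le hn (le_of_eq ?_)) h2
      rw [one_div (1 + 1 / (n : ℝ)), inv_pow]

end Crest.Agent.S0423
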