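-- Statement S0430 (row 285): `d^ε` gradient queries for log-concave sampling.
import Crest.Statements.S0430
import Crest.Agent.R285.Gauss
import Crest.Agent.R285.Poinc
import Crest.Agent.R285.Basic
import Crest.Agent.R285.Cov
import Crest.Agent.R285.Smooth
import Crest.Agent.R285.Sep
import Crest.Agent.R285.L2
import Crest.Agent.R285.FBK
import Crest.Agent.R285.Trans
import Crest.Agent.R285.Marg
import Crest.Agent.R285.Quad
import Crest.Agent.R285.Contr
import Crest.Agent.R285.Bayes
import Crest.Agent.R285.End
import Crest.Agent.R285.Calc
import Crest.Agent.R285.XC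
import Crest.Agent.R285.XB
import Crest.Agent.R285.D1
import Crest.Agent.R285.D2
import Crest.Agent.R285.Reg
import Crest.Agent.R285.L4
import Crest.Agent.R285.Flow
import Crest.Agent.R285.Core
import Crest.Agent.R285.Pic
import Crest.Agent.R285.LEb
import Crest.Agent.R285.Size
import Crest.Agent.R285.Tr
import Crest.Agent.R285.Prog
import Crest.Agent.R285.Real
import Crest.Agent.R285.BaseRef
import Crest.Agent.R285.Step
import Crest.Agent.R285.Num
import Crest.Agent.R285.Outer

set_option autoImplicit false
open Crest Crest.LogicCS

namespace Crest.Agent.S0430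

open Crest.Agent.R285 in
/-- For every ε > 0 there is a constant C such that in every dimension d ≥ 2 some measurable randomized adaptive algorithm making at most C · d^ε exact value-and-gradient queries, with unrestricted computation between queries, outputs, for every twice continuously differentiable potential V on ℝ^d with V(0) = 0, ∇V(0) = 0 and second derivative between the identity and twice the identity everywhere, a point whose law is within total variation 1/10 of the law with density proportional to exp(−V). -/
theorem result :
    ∀ ε : ℝ, 0 < ε → ∃ C : ℝ, ∀ d : ℕ, 2 ≤ d →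
      ∃ (q : ℕ) (A : Crest.OracleSampling.QueryAlg d q), (q : ℝ) ≤ C * (d : ℝ) ^ ε ∧
        ∀ V : Crest.OracleSampling.E d → ℝ, Crest.OracleSampling.Admissible d V →
          Crest.OracleSampling.Succeeds A V := by
  have hG := gaussStmt
  have hP := poincStmt hG
  have hB := basicStmt hG
  have hCo := covStmt hG hB hP
  have hSm := smoothStmt hG hB
  have hSep := sepStmt hG hB hSm
  have hL2 := l2Stmt hG hB hP hSep
  have hFB := fbStmt hB hSm hSep hL2
  have hCa := calcStmt hB hSm
  have hXC := xcStmt hSm
  have hXB := xbStmt hFB
  have hD1 := d1Stmt hCa hXC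
  have hD2 := d2Stmt hCa hXC hD1
  have hL4 := l4Stmt hG hB hCo hCa hXB hD1
  have hReg := regStmt hCa hD1 hD2 hL4 hB
  have hFl := flowStmt hG hB hCo hSm hFB hCa transportStmt
  have hLE := leStmt hCo
  have hPic := picStmt hFl hReg
  have hCore := coreStmt hFl hReg quadStmt hLE hPic
  have hTr := trStmt hB
  have hSz := sizeStmt hB hCo hLE hTr
  have hM := margStmt hG hB
  have hPr := progStmt hB
  have hR := realStmt hG hPr
  have hBa := bayesStmt hG hB
  have hRef := refStmt hCore (baseStmt hB hCo hR) (stepStmt hB hCo hR hLE hTr hSz hM)
    (refOfStmt hB hCo hR hLE hTr hSz hM)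
  exact mainStmt hG hPr hBa (contrStmt hG hB hP hCo) (endStmt hG hB hBa) hRef

end Crest.Agent.S0430
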