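import Crest.Statements.S0441
import Crest.Agent.R292.Main
import Crest.Agent.R292.Final
import Crest.Agent.R292.NF1
import Crest.Agent.R292.NF2
import Crest.Agent.R292.Gen
import Crest.Agent.R292.Borel
import Crest.Agent.R292.Chunk
import Crest.Agent.R292.Test
import Crest.Agent.R292.Iter
import Crest.Agent.R292.KU
import Crest.Agent.R292.Rem

set_option autoImplicit false
open Crest.LogicCS.Degrees
open Crest Crest.LogicCS

namespace Crest.Agent.S0441

/-- Every order automorphism of the partially ordered set of Turing degrees of sets of natural numbers is the identity. The degrees of sets are taken inside the library's degree structure of partial functions, as the classes of characteristic functions, with the induced order. -/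
theorem result (π : SetDegree ≃o SetDegree) : π = OrderIso.refl SetDegree := by
  exact R292.final R292.nf1Stmt R292.nf2Stmt (R292.mainStmt_of (R292.borelStmt_of R292.genStmt)
    R292.chunkStmt R292.testStmt R292.iterStmt R292.tableStmt R292.kuStmt R292.remStmt) π

end Crest.Agent.S0441
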