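import Crest.Statements.S0453
import Crest.Agent.R299.Transfer

set_option autoImplicit false
open Finset
open Crest Crest.LogicCS

namespace Crest.Agent.S0453

/-- For every n ≥ 4 and every labeled degree vector on n vertices with a simple realization: the lazy switch chain (hold with probability 1/2, else take a uniform four-vertex set and a uniform ordered pair of distinct perfect matchings on it, swapping the first for the second when the first is present and the second absent) is, from every realization, within total variation 1/4 of uniform on the realizations after some t ≤ 2n^8 steps; and Var(f) ≤ 24 n² C(n,4) ⟨f, (I − P) f⟩ for the uniform law. -/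
theorem result (n : ℕ) (hn : 4 ≤ n)
    (d : Fin n → ℕ) (hd : (Crest.SwitchChain.realizations d).Nonempty) :
    (∃ t : ℕ, t ≤ 2 * n ^ 8 ∧ ∀ G ∈ Crest.SwitchChain.realizations d,
        Crest.SwitchChain.tvDist (fun G' => (Crest.SwitchChain.kernel n ^ t) G G')
          (Crest.SwitchChain.unifOn (Crest.SwitchChain.realizations d)) ≤ 1 / 4) ∧
      ∀ f : Finset (Crest.SwitchChain.Edge n) → ℝ,
        ((Crest.SwitchChain.realizations d).card : ℝ) *
              (∑ G ∈ Crest.SwitchChain.realizations d, f G ^ 2) -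
            (∑ G ∈ Crest.SwitchChain.realizations d, f G) ^ 2 ≤
          24 * (n : ℝ) ^ 2 * (n.choose 4 : ℝ) * (Crest.SwitchChain.realizations d).card *
            ∑ G ∈ Crest.SwitchChain.realizations d,
              f G * (f G - ∑ G' ∈ Crest.SwitchChain.realizations d,
                Crest.SwitchChain.kernel n G G' * f G') := by
  refine ⟨⟨2 * n ^ 8, le_rfl, fun G hG => ?_⟩, R299.poincare hn d hd⟩
  have hn' : (4 : ℝ) ≤ n := by exact_mod_cast hn
  have hC : (1 : ℝ) ≤ n.choose 4 := by exact_mod_cast Nat.choose_pos hn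
  have hC' : 24 * (n.choose 4 : ℝ) ≤ (n : ℝ) ^ 4 := by
    have := Nat.choose_le_pow_div (α := ℝ) 4 n
    norm_num [Nat.factorial] at this
    linarith
  have hn2 : (16 : ℝ) ≤ (n : ℝ) ^ 2 := by nlinarith
  set c : ℝ := 24 * (n : ℝ) ^ 2 * (n.choose 4 : ℝ) with hc
  have hc1 : 1 ≤ c := by rw [hc]; nlinarith
  have hc2 : c ≤ (n : ℝ) ^ 6 := by
    have := mul_le_mul_of_nonneg_left hC' (sq_nonneg (n : ℝ))
    rw [hc]; nlinarith
  refine (R299.lazy_kernel hn d).tv hc1 (R299.poincare hn d hd) hG _ ?_
  have h1 : ((Crest.SwitchChain.realizations d).card : ℝ) ≤ Real.exp (n ^ 2) := by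
    have h2 : (Crest.SwitchChain.realizations d).card ≤ 2 ^ (n ^ 2) := by
      refine (card_le_univ _).trans ?_
      rw [Fintype.card_finset]
      refine Nat.pow_le_pow_right (by norm_num) ?_
      rw [Sym2.card_subtype_not_diag, Fintype.card_fin]
      exact Nat.choose_le_pow n 2
    calc ((Crest.SwitchChain.realizations d).card : ℝ) ≤ 2 ^ (n ^ 2) := by exact_mod_cast h2
      _ ≤ Real.exp 1 ^ (n ^ 2) := by
        refine pow_le_pow_left₀ (by norm_num) ?_ _
        linarith [Real.add_one_le_exp (1 : ℝ)]
      _ = _ := by rw [← Real.exp_nat_mul]; simp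
  have h2 : (1 - 1 / c) ^ (2 * n ^ 8) ≤ Real.exp (-(2 * n ^ 2)) := by
    have hc0 : 0 < c := by linarith
    calc (1 - 1 / c) ^ (2 * n ^ 8) ≤ Real.exp (-(1 / c)) ^ (2 * n ^ 8) := by
          refine pow_le_pow_left₀ ?_ (by linarith [Real.add_one_le_exp (-(1 / c))]) _
          rw [sub_nonneg, div_le_one hc0]; exact hc1
      _ = Real.exp (-(2 * n ^ 8 / c)) := by
          rw [← Real.exp_nat_mul]; congr 1; push_cast; ring
      _ ≤ _ := by
          rw [Real.exp_le_exp, neg_le_neg_iff, le_div_iff₀ hc0]
          have := mul_le_mul_of_nonneg_left hc2 (sq_nonneg (n : ℝ))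
          nlinarith
  calc _ ≤ Real.exp (n ^ 2) * Real.exp (-(2 * n ^ 2)) :=
        mul_le_mul h1 h2 (pow_nonneg (by
          rw [sub_nonneg, div_le_one (by linarith)]; exact hc1) _) (Real.exp_pos _).le
    _ = (Real.exp (n ^ 2))⁻¹ := by rw [← Real.exp_add, ← Real.exp_neg]; congr 1; ring
    _ ≤ 1 / 4 := by
        rw [one_div]
        exact inv_anti₀ (by norm_num) (by linarith [Real.add_one_le_exp ((n : ℝ) ^ 2)])

end Crest.Agent.S0453
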