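import Crest.Statements.S0479
import Crest.Agent.R309.Top
import Crest.Agent.R309.Samp
import Crest.Agent.R309.Count
import Crest.Agent.R309.Pair

set_option autoImplicit false
open Crest.Enc Crest.FinProb Crest.Randomized Crest.Tables
open Crest Crest.LogicCS

namespace Crest.Agent.S0479

/-- A randomized polynomial-time approximation scheme counts contingency tables with cell bounds: one algorithm and one polynomial r such that, on the codes of margins, of cell bounds, of rationals ε, δ in (0,1) and a unary block of length ⌈1/ε⌉, run with r(input length) fair random bits, every tape yields the code of a nonnegative rational, which with probability at least 1 − δ is within a factor 1 ± ε of the number of bounded tables, and which is 0 on every tape when there is no such table. -/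
theorem result :
    ∃ (A : List Bool × List Bool → List Bool) (r : Polynomial ℕ), RandPolyTime A ∧
      ∀ (m n : ℕ) (rs : Fin m → ℕ) (cs : Fin n → ℕ) (b : Fin m → Fin n → ℕ) (ε δ : ℚ),
        0 < ε → ε < 1 → 0 < δ → δ < 1 →
        (∀ ω : Fin (r.eval (marginsCode rs cs ++ boundsCode b ++ ratCode ε ++ ratCode δ ++ List.replicate ⌈ε⁻¹⌉₊ true).length) → Bool,
          ∃ z : ℚ, 0 ≤ z ∧ A (marginsCode rs cs ++ boundsCode b ++ ratCode ε ++ ratCode δ ++ List.replicate ⌈ε⁻¹⌉₊ true, List.ofFn ω) = ratCode z) ∧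
        (numBoundedTables rs cs b = 0 →
          ∀ ω : Fin (r.eval (marginsCode rs cs ++ boundsCode b ++ ratCode ε ++ ratCode δ ++
              List.replicate ⌈ε⁻¹⌉₊ true).length) → Bool,
            A (marginsCode rs cs ++ boundsCode b ++ ratCode ε ++ ratCode δ ++
              List.replicate ⌈ε⁻¹⌉₊ true, List.ofFn ω) = ratCode 0) ∧
        1 - (δ : ℝ) ≤ uniformProb {ω : Fin (r.eval (marginsCode rs cs ++ boundsCode b ++ ratCode ε ++
              ratCode δ ++ List.replicate ⌈ε⁻¹⌉₊ true).length) → Bool |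
            ∃ z : ℚ, A (marginsCode rs cs ++ boundsCode b ++ ratCode ε ++ ratCode δ ++
                List.replicate ⌈ε⁻¹⌉₊ true, List.ofFn ω) = ratCode z ∧
              (1 - ε) * numBoundedTables rs cs b ≤ z ∧ z ≤ (1 + ε) * numBoundedTables rs cs b} := by
  open Crest.Agent.PT Crest.Agent.R309 in
  obtain ⟨S, hS, hspec⟩ := exists_sampler
  open Crest.Agent.PT Crest.Agent.R309 in
  obtain ⟨A, LC, hA, hLC, hc⟩ := counter_of_sampler hS
    (pu_LS (PU.val PTime.fst') (PU.val PTime.snd')) hspec
  open Crest.Agent.PT Crest.Agent.R309 in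
  obtain ⟨r, hr⟩ := exists_poly_rdP hLC
  open Crest.Agent.PT Crest.Agent.R309 in
  let B : List Bool × List Bool → ℕ × ℕ := fun p =>
    A (rdNet p.1, rdB p.1, ⟨rdP p.1⟩, p.2.take (LC (rdP p.1)))
  open Crest.Agent.PT Crest.Agent.R309 in
  have hB : PTime B := by
    have hP : PU fun p : Word × Word => rdP p.1 := PU.comp pu_rdP PTime.fst'
    have hL : PU fun p : Word × Word => LC (rdP p.1) :=
      PU.comp (n := fun u : Un => LC u.val) hLC (PTime.unMk hP)
    exact hA.comp ((ptime_rdNet.comp PTime.fst').pair ((ptime_rdB.comp PTime.fst').pair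
      ((PTime.unMk hP).pair (PTime.take hL.ptime PTime.snd'))))
  open Crest.Agent.PT Crest.Agent.R309 in
  refine ⟨fun p => ratCode (((B p).1 : ℚ) / ((B p).2 : ℚ)), r,
    randPolyTime_of_ptime (ptime_ratCode_div hB.fst hB.snd), ?_⟩
  intro m n rs cs b ε δ hε0 hε1 hδ0 hδ1
  generalize hx : marginsCode rs cs ++ boundsCode b ++ ratCode ε ++ ratCode δ ++
    List.replicate ⌈ε⁻¹⌉₊ true = x
  have hx1 : x = marginsCode rs cs ++ boundsCode b ++ (ratCode ε ++ ratCode δ ++
    List.replicate ⌈ε⁻¹⌉₊ true) := by rw [← hx]; simp only [List.append_assoc]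
  have hx2 : x = marginsCode rs cs ++ (boundsCode b ++ (ratCode ε ++ ratCode δ ++
    List.replicate ⌈ε⁻¹⌉₊ true)) := by rw [← hx]; simp only [List.append_assoc]
  open Crest.Agent.PT Crest.Agent.R309 in
  have e1 : rdNet x = tabNet m n (List.ofFn rs) (List.ofFn cs) := by rw [hx2]; exact rdNet_code _ _ _
  open Crest.Agent.PT Crest.Agent.R309 in
  have e2 : rdB x = flat b := by rw [hx1]; exact rdB_code _ _ _ _
  open Crest.Agent.PT Crest.Agent.R309 in
  have e3 : (tabNet m n (List.ofFn rs) (List.ofFn cs)).Small (flat b) (rdP x) := by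
    rw [hx1]; exact small_B _ _ _ _
  open Crest.Agent.PT Crest.Agent.R309 in
  obtain ⟨h0, h1⟩ := hc _ _ _ (tabNet_WF m n _ _) e3
  open Crest.Agent.PT Crest.Agent.R309 in
  have hcard := card_flows_tab rs cs b
  open Crest.Agent.PT Crest.Agent.R309 in
  have hlen := length_le_rdP x
  refine ⟨fun ω => ⟨_, by positivity, rfl⟩, fun hz ω => ?_, ?_⟩
  · rw [← hcard, Finset.card_eq_zero] at hz
    simp only [B, e1, e2, h0 hz]
    simp
  · open Crest.Agent.PT Crest.Agent.R309 in
    rw [uniformProb_eq (r.eval x.length) fun ω => ∃ z : ℚ,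
      ratCode (((B (x, ω)).1 : ℚ) / ((B (x, ω)).2 : ℚ)) = ratCode z ∧
        (1 - ε) * numBoundedTables rs cs b ≤ z ∧ z ≤ (1 + ε) * numBoundedTables rs cs b]
    open Crest.Agent.PT Crest.Agent.R309 in
    rw [← Pr_take (hr x), hcard] at h1
    have hδ : (2 : ℝ)⁻¹ ^ Crest.Agent.R309.rdP x ≤ δ := by
      have h2 : δ.den < 2 ^ Crest.Agent.R309.rdP x := by
        refine (Crest.Agent.PT.lt_two_pow_length_natCode δ.den).trans_le
          (Nat.pow_le_pow_right (by norm_num) ?_)
        have : (natCode δ.den).length ≤ x.length := by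
          rw [← hx]; simp only [ratCode, List.length_append, List.length_cons]; omega
        omega
      have h3 : (1 : ℝ) ≤ δ.num := by exact_mod_cast Rat.num_pos.2 hδ0
      have h4 : (0 : ℝ) < δ.den := by exact_mod_cast δ.den_pos
      have h5 : (δ.den : ℝ) ≤ 2 ^ Crest.Agent.R309.rdP x := by exact_mod_cast h2.le
      rw [Rat.cast_def, inv_pow, le_div_iff₀ h4, inv_mul_le_iff₀ (by positivity)]
      nlinarith [pow_pos (show (0 : ℝ) < 2 by norm_num) (Crest.Agent.R309.rdP x)]
    have hε : 1 / (Crest.Agent.R309.rdP x : ℝ) ≤ ε := by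
      have h2 : ⌈ε⁻¹⌉₊ ≤ x.length := by
        rw [← hx]; simp only [List.length_append, List.length_replicate]; omega
      have h3 : ε⁻¹ ≤ (Crest.Agent.R309.rdP x : ℚ) :=
        (Nat.le_ceil _).trans (by exact_mod_cast (by omega))
      have h4 : (ε : ℝ)⁻¹ ≤ (Crest.Agent.R309.rdP x : ℝ) := by exact_mod_cast h3
      have h5 : (0 : ℝ) < ε := by exact_mod_cast hε0
      rw [one_div]
      exact inv_le_of_inv_le₀ h5 h4
    refine le_trans (by linarith) (h1.trans (Crest.Agent.R309.Pr_mono fun ω _ hω => ?_))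
    refine ⟨_, rfl, ?_⟩
    simp only [B, e1, e2]
    have hN : (0 : ℝ) ≤ numBoundedTables rs cs b := Nat.cast_nonneg _
    have h6 : (numBoundedTables rs cs b : ℝ) / Crest.Agent.R309.rdP x ≤
        ε * numBoundedTables rs cs b := by
      rw [div_eq_mul_one_div, mul_comm]; exact mul_le_mul_of_nonneg_right hε hN
    obtain ⟨h7, h8⟩ := abs_le.1 (hω.trans h6)
    constructor
    · rw [← Rat.cast_le (K := ℝ)]; push_cast; linarith
    · rw [← Rat.cast_le (K := ℝ)]; push_cast; linarith

end Crest.Agent.S0479
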