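import Crest.Statements.S0499
import Crest.Agent.R322.Link

set_option autoImplicit false
open Crest Crest.LogicCS

namespace Crest.Agent.S0499

/-- For each A > 0 there are c > 0 and d₀ such that for all d ≥ d₀, naturals M ≤ A·d² and T, and 0 < ε ≤ 1/10: if a randomized one-pass learner with at most 2^M states (own seed independent of the data; transitions read one pair (x_t, ⟪x_t, s⟫) at a time; optional early stopping; unit-vector output from stopping index, seed and final state), fed T independent standard Gaussian samples in ℝ^d with s uniform on the sphere, is within angle ε of s with probability ≥ 2/3, then T ≥ c·d·log(1/ε). -/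
theorem result :
    ∀ A : ℝ, 0 < A → ∃ c : ℝ, 0 < c ∧ ∃ d₀ : ℕ, ∀ d ≥ d₀, ∀ (M T : ℕ),
      (M : ℝ) ≤ A * (d : ℝ) ^ 2 → ∀ ε : ℝ, 0 < ε → ε ≤ 1 / 10 →
        ∀ L : Crest.StreamLearn.RLearner d T M,
          2 / 3 ≤ L.successProb ε → c * d * Real.log (1 / ε) ≤ T := by
  intro A hA
  set B : ℝ := 8 * (A + 1) with hB
  have hB0 : 0 < B := by positivity
  refine ⟨1 / (128 * (B + 11)), by positivity, 8, fun d hd M T hM ε hε hε1 L hL => ?_⟩
  have hd8 : (8 : ℝ) ≤ d := by exact_mod_cast hd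
  set Lg := Real.log (1 / ε) with hLg
  have hLg0 : 0 ≤ Lg := Real.log_nonneg (by rw [le_div_iff₀ hε]; linarith)
  have hT0 : (0 : ℝ) ≤ T := Nat.cast_nonneg T
  rw [mul_assoc, one_div, inv_mul_le_iff₀ (by positivity)]
  rcases le_total Lg (16 * (B + 11)) with hsmall | hlarge
  · have h1 := hL.trans (R322.small_bound L (by omega) ε hε.le hε1)
    have h2 : 33 / 100 ≤ (T : ℝ) / d := by linarith
    rw [le_div_iff₀ (by linarith)] at h2
    have h3 : (d : ℝ) * Lg ≤ d * (16 * (B + 11)) := by gcongr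
    nlinarith
  obtain ⟨q, hq⟩ : ∃ q, d / 4 = q + 1 := ⟨d / 4 - 1, by omega⟩
  set n := q + 1 with hn
  have hn4 : 4 * (n : ℝ) ≤ d := by exact_mod_cast (by omega : 4 * n ≤ d)
  have hn8 : (d : ℝ) ≤ 8 * n := by exact_mod_cast (by omega : d ≤ 8 * n)
  have hn0 : (0 : ℝ) < n := by linarith
  set G : ℝ := 2 ^ d * R322.Cc d n q (2 * n) with hG
  have hCc : 0 < R322.Cc d n q (2 * n) := by unfold R322.Cc; positivity
  have hG0 : 0 < G := by positivity
  set Λ : ℝ := Real.exp (B * d) with hΛ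
  have hΛ0 : 0 < Λ := Real.exp_pos _
  have hj : T ≤ (T / n + 1) * n := by
    have := Nat.lt_div_mul_add (a := T) (b := n) (by omega)
    rw [add_mul, one_mul]; omega
  have h1 := hL.trans (R322.large_bound L ε hε (by linarith) (k := n) (l := 2 * n) (q := q)
    (by omega) (by omega) (by omega) (by omega) (G * Λ) (by positivity) (T / n + 1) hj)
  have two_le : (2 : ℝ) ≤ Real.exp 1 := by linarith [Real.add_one_le_exp (1 : ℝ)]
  have two_pow_le : ∀ m : ℕ, (2 : ℝ) ^ m ≤ Real.exp m := fun m => by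
    calc (2 : ℝ) ^ m ≤ Real.exp 1 ^ m := by gcongr
      _ = Real.exp m := by rw [← Real.exp_nat_mul, mul_one]
  have hN : (2 : ℝ) ^ M * ((n : ℝ) + 1) ≤ Λ ^ n := by
    rw [hΛ, ← Real.exp_nat_mul]
    calc (2 : ℝ) ^ M * ((n : ℝ) + 1) ≤ Real.exp M * Real.exp n := by
          gcongr
          · exact two_pow_le M
          · exact Real.add_one_le_exp _
      _ = Real.exp (M + n) := (Real.exp_add _ _).symm
      _ ≤ _ := by
          gcongr
          have h2 : (n : ℝ) ≤ (d : ℝ) ^ 2 := by nlinarith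
          have h3 : (A + 1) * (d : ℝ) ^ 2 ≤ n * (B * d) := by
            rw [hB]
            have : 0 ≤ (A + 1) * (d : ℝ) := by positivity
            nlinarith
          linarith
  have h2 : (2 ^ M * ((n : ℝ) + 1)) *
      ((2 ^ d) ^ n * (R322.Cc d n q (2 * n) / (G * Λ)) ^ (q + 1)) ≤ 1 := by
    rw [← hn, ← mul_pow]
    have : 2 ^ d * (R322.Cc d n q (2 * n) / (G * Λ)) = Λ⁻¹ := by
      rw [hG]; field_simp
    rw [this, inv_pow, ← div_eq_mul_inv, div_le_one (by positivity)]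
    exact hN
  have hG1 : G ≤ Real.exp (6 * d) := by
    have h4 : (4 : ℝ) ^ (2 * n) = 2 ^ (4 * n) := by
      rw [show (4 : ℝ) = 2 ^ 2 by norm_num, ← pow_mul]; congr 1; ring
    have h5 : G = Real.exp (2 * d) * 2 ^ (d + 7 * n) := by
      rw [hG, R322.Cc, h4, show d + 7 * n = d + n + n + (1 + q + 4 * n) by omega]
      simp only [pow_add]
      ring
    rw [h5]
    calc Real.exp (2 * d) * 2 ^ (d + 7 * n) ≤ Real.exp (2 * d) * Real.exp ((d + 7 * n : ℕ) : ℝ) := by
          gcongr; exact two_pow_le _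
      _ = Real.exp (2 * d + ((d + 7 * n : ℕ) : ℝ)) := (Real.exp_add _ _).symm
      _ ≤ _ := by gcongr; push_cast; linarith
  have h3 : G * Λ + (2 ^ M * ((n : ℝ) + 1)) *
      ((2 ^ d) ^ n * (R322.Cc d n q (2 * n) / (G * Λ)) ^ (q + 1)) ≤ Real.exp ((B + 7) * d) := by
    have h4 : G * Λ ≤ Real.exp (6 * d + B * d) := by rw [Real.exp_add]; gcongr
    have h5 : 1 ≤ Real.exp (6 * d + B * d) := Real.one_le_exp (by positivity)
    have h6 : (2 : ℝ) ≤ Real.exp d := two_le.trans (Real.exp_le_exp.2 (by linarith))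
    rw [show (B + 7) * d = d + (6 * d + B * d) by ring, Real.exp_add]
    nlinarith
  have h4 : 2 * 3 ^ d * ε ^ (d - 1 - 2 * n) ≤ Real.exp (3 * d - n * Lg) := by
    have h5 : ε ^ (d - 1 - 2 * n) ≤ ε ^ n := pow_le_pow_of_le_one hε.le (by linarith) (by omega)
    have h6 : ε ^ n = Real.exp (-(n * Lg)) := by
      rw [hLg, one_div, Real.log_inv, mul_neg, neg_neg, Real.exp_nat_mul, Real.exp_log hε]
    have h7 : (2 : ℝ) * 3 ^ d ≤ Real.exp (3 * d) := by
      calc (2 : ℝ) * 3 ^ d ≤ 2 ^ d * 4 ^ d := by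
            gcongr
            · exact le_self_pow₀ (by norm_num) (by omega)
            · norm_num
        _ = 2 ^ (3 * d) := by rw [← mul_pow, pow_mul]; norm_num
        _ ≤ Real.exp ((3 * d : ℕ) : ℝ) := two_pow_le _
        _ = _ := by push_cast; rfl
    rw [sub_eq_add_neg, Real.exp_add, ← h6]
    gcongr
  have h5 : (2 / 3 : ℝ) ≤ Real.exp (3 * d - n * Lg + ((T / n + 1 : ℕ) : ℝ) * ((B + 7) * d)) := by
    refine h1.trans ?_
    rw [Real.exp_add, Real.exp_nat_mul]
    gcongr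
  have h6 : Real.exp (-1) ≤ 2 / 3 := by
    rw [Real.exp_neg, inv_le_comm₀ (Real.exp_pos _) (by norm_num)]
    linarith
  have h7 := Real.exp_le_exp.1 (h6.trans h5)
  have h8 : ((T / n + 1 : ℕ) : ℝ) * ((B + 7) * d) ≤ 8 * (B + 7) * T + (B + 7) * d := by
    have h9 : ((T / n : ℕ) : ℝ) * n ≤ T := by exact_mod_cast Nat.div_mul_le_self T n
    have h10 : ((T / n : ℕ) : ℝ) * d ≤ 8 * T := by
      have : (0 : ℝ) ≤ ((T / n : ℕ) : ℝ) := Nat.cast_nonneg _
      nlinarith
    push_cast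
    nlinarith
  have h9 : (d : ℝ) * Lg ≤ 8 * (n * Lg) := by nlinarith
  have h10 : (d : ℝ) * (16 * (B + 11)) ≤ d * Lg := by gcongr
  nlinarith

end Crest.Agent.S0499
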