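import Crest.Statements.S0516
import Crest.Agent.R332.All

set_option autoImplicit false
open MeasureTheory
open scoped ComplexOrder
open Crest.MathPhysics.LiebThirring
open Crest Crest.MathPhysics

namespace Crest.Agent.S0516

/-- Equality cases, variational form, same setting (1/2 < γ < 3/2, r = 1/(γ-1/2), W measurable Hermitian positive semidefinite with ∫ tr(W^{γ+1/2}) < ∞): trial families come within every ε > 0 of C_γ ∫ tr(W^{γ+1/2}) with the γ-moment of the negative part of their energy matrix if and only if, for some constant unitary U and numbers a_i ≥ 0, c_i, almost everywhere W(x) = U diag((r+1) a_i² sech²(r a_i (x - c_i))) U*. -/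
theorem result
    (γ : ℝ) (hγ : 1 / 2 < γ) (hγ' : γ < 3 / 2) (m : ℕ) (hm : 1 ≤ m)
    (W : ℝ → Matrix (Fin m) (Fin m) ℂ) (hW : ∀ i j, Measurable fun x => W x i j)
    (hWp : ∀ x, (W x).PosSemidef)
    (hWi : Integrable fun x => tracePow (W x) (γ + 1 / 2)) :
    (∀ ε : ℝ, 0 < ε → ∃ (n : ℕ) (φ : Fin n → ℝ → Vec m), IsTrialFamily φ ∧
        sharpConst γ * (∫ x, tracePow (W x) (γ + 1 / 2)) - ε < negMoment (energyMatrix W φ) γ) ↔
      ∃ (U : Matrix.unitaryGroup (Fin m) ℂ) (a c : Fin m → ℝ), (∀ i, 0 ≤ a i) ∧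
        ∀ᵐ x : ℝ, W x = (U : Matrix (Fin m) (Fin m) ℂ) *
          Matrix.diagonal (fun i => ((soliton (γ - 1 / 2)⁻¹ (a i) (c i) x : ℝ) : ℂ)) *
            star (U : Matrix (Fin m) (Fin m) ℂ) := by
  exact R332.s0516_of R332.bridgeStmt R332.fwdStmt R332.convStmt γ hγ hγ' m W hW hWp hWi

end Crest.Agent.S0516
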